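import Crest.Agent.R166.Iface

/-!
# R166/P/Basic: averages over finite types, switches, walks, the resampling lemma
-/

set_option autoImplicit false
set_option linter.unusedSectionVars false

open MeasureTheory ProbabilityTheory Filter Topology
open scoped ENNReal

noncomputable section

namespace Crest.Agent.R166

section avg
variable {ι κ : Type} [Fintype ι] [Fintype κ]

theorem p_avg_mono {f g : ι → ℝ} (h : ∀ i, f i ≤ g i) : avg f ≤ avg g :=
  div_le_div_of_nonneg_right (Finset.sum_le_sum fun i _ => h i) (Nat.cast_nonneg _)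

theorem p_avg_nonneg {f : ι → ℝ} (h : ∀ i, 0 ≤ f i) : 0 ≤ avg f :=
  div_nonneg (Finset.sum_nonneg fun i _ => h i) (Nat.cast_nonneg _)

theorem p_avg_add (f g : ι → ℝ) : avg (fun i => f i + g i) = avg f + avg g := by
  simp only [avg, Finset.sum_add_distrib, add_div]

theorem p_avg_mul (c : ℝ) (f : ι → ℝ) : avg (fun i => c * f i) = c * avg f := by
  simp only [avg, ← Finset.mul_sum, mul_div_assoc]

theorem p_avg_const [Nonempty ι] (c : ℝ) : avg (fun _ : ι => c) = c := by
  have : (Fintype.card ι : ℝ) ≠ 0 := by exact_mod_cast Fintype.card_ne_zero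
  simp only [avg, Finset.sum_const, Finset.card_univ, nsmul_eq_mul]
  field_simp

theorem p_avg_le {f : ι → ℝ} {c : ℝ} (hc : 0 ≤ c) (h : ∀ i, f i ≤ c) : avg f ≤ c := by
  cases isEmpty_or_nonempty ι with
  | inl _ => simpa [avg] using hc
  | inr _ => exact (p_avg_mono h).trans (p_avg_const c).le

theorem p_avg_sum {α : Type} (s : Finset α) (f : α → ι → ℝ) :
    avg (fun i => ∑ a ∈ s, f a i) = ∑ a ∈ s, avg (f a) := by
  simp only [avg]
  rw [Finset.sum_comm, Finset.sum_div]

theorem p_avg_prod (f : ι × κ → ℝ) : avg f = avg fun a => avg fun b => f (a, b) := by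
  simp only [avg, Fintype.sum_prod_type, Fintype.card_prod, Nat.cast_mul, ← Finset.sum_div, div_div,
    mul_comm]

theorem p_avg_comm (f : ι → κ → ℝ) : (avg fun a => avg fun b => f a b) = avg fun b => avg fun a => f a b := by
  simp only [avg, ← Finset.sum_div, div_div]
  rw [Finset.sum_comm, mul_comm]

theorem p_avg_equiv (e : ι ≃ κ) (f : κ → ℝ) : avg (fun i => f (e i)) = avg f := by
  simp only [avg, Equiv.sum_comp e f, Fintype.card_congr e]

theorem p_frac_nonneg (p : ι → Prop) : 0 ≤ frac p := p_avg_nonneg fun i => by split_ifs <;> norm_num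

theorem p_frac_le_one (p : ι → Prop) : frac p ≤ 1 :=
  p_avg_le zero_le_one fun i => by split_ifs <;> norm_num

theorem p_frac_eq_zero {p : ι → Prop} (h : ∀ i, ¬ p i) : frac p = 0 := by
  simp [frac, avg, h]

theorem p_frac_mono {p p' : ι → Prop} (h : ∀ i, p i → p' i) : frac p ≤ frac p' :=
  p_avg_mono fun i => by
    by_cases h1 : p i
    · simp [h1, h i h1]
    · simp only [h1, if_false]; split_ifs <;> norm_num

theorem p_frac_or (p p' : ι → Prop) : frac (fun i => p i ∨ p' i) ≤ frac p + frac p' := by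
  unfold frac
  rw [← p_avg_add]
  refine p_avg_mono fun i => ?_
  by_cases h1 : p i <;> by_cases h2 : p' i <;> simp [h1, h2]

theorem p_frac_or_le {p p₁ p₂ : ι → Prop} (h : ∀ i, p i → p₁ i ∨ p₂ i) : frac p ≤ frac p₁ + frac p₂ :=
  (p_frac_mono h).trans (p_frac_or _ _)

theorem p_frac_eq (p : ι → Prop) [DecidablePred p] :
    frac p = ((Finset.univ.filter p).card : ℝ) / Fintype.card ι := by
  simp only [frac, avg, Finset.card_filter, Nat.cast_sum, Nat.cast_ite, Nat.cast_one, Nat.cast_zero]
  congr 1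
  exact Finset.sum_congr rfl fun i _ => by congr

theorem p_frac_le_card {p : ι → Prop} {T : Finset ι} {t : ℝ} (h : ∀ i, p i → i ∈ T) (ht : (T.card : ℝ) ≤ t) :
    frac p ≤ t / Fintype.card ι := by
  classical
  rw [p_frac_eq]
  refine div_le_div_of_nonneg_right (le_trans ?_ ht) (Nat.cast_nonneg _)
  exact_mod_cast Finset.card_le_card fun i hi => h i (Finset.mem_filter.1 hi).2

theorem p_frac_prod (p : ι × κ → Prop) : frac p = avg fun a => frac fun b => p (a, b) :=
  p_avg_prod _

theorem p_frac_prod' (p : ι × κ → Prop) : frac p = avg fun b => frac fun a => p (a, b) :=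
  (p_avg_prod _).trans (p_avg_comm _)

theorem p_frac_comm (p : ι → κ → Prop) :
    (avg fun a => frac fun b => p a b) = avg fun b => frac fun a => p a b := p_avg_comm _

theorem p_frac_equiv (e : ι ≃ κ) (p : κ → Prop) : frac (fun i => p (e i)) = frac p :=
  p_avg_equiv e fun i => @ite _ (p i) (Classical.propDecidable _) (1 : ℝ) 0

theorem p_frac_fst (p : ι → Prop) : frac (fun x : ι × κ => p x.1) ≤ frac p := by
  rw [p_frac_prod']
  exact p_avg_le (p_frac_nonneg _) fun _ => le_rfl

theorem p_frac_snd (p : κ → Prop) : frac (fun x : ι × κ => p x.2) ≤ frac p := by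
  rw [p_frac_prod]
  exact p_avg_le (p_frac_nonneg _) fun _ => le_rfl

theorem p_integral_uniformOn [MeasurableSpace ι] [DiscreteMeasurableSpace ι] (s : Finset ι) (f : ι → ℝ) :
    ∫ i, f i ∂uniformOn (s : Set ι) = (∑ i ∈ s, f i) / s.card := by
  rw [uniformOn, ProbabilityTheory.cond, integral_smul_measure, Measure.count_apply_finset,
    setIntegral_finset _ (Integrable.of_finite), smul_eq_mul, div_eq_inv_mul]
  simp [Measure.real]

theorem p_integral_uniform [MeasurableSpace ι] [DiscreteMeasurableSpace ι] (f : ι → ℝ) :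
    ∫ i, f i ∂uniformOn (Set.univ : Set ι) = avg f := by
  rw [← Finset.coe_univ, p_integral_uniformOn]
  rfl

theorem p_uniform_apply [MeasurableSpace ι] [DiscreteMeasurableSpace ι] (p : ι → Prop) :
    uniformOn (Set.univ : Set ι) {i | p i} = ENNReal.ofReal (frac p) := by
  classical
  have : {i | p i} = ((Finset.univ.filter p : Finset ι) : Set ι) := by ext; simp
  rw [uniformOn_univ, this, Measure.count_apply_finset, p_frac_eq]
  cases isEmpty_or_nonempty ι with
  | inl _ => simp [Finset.eq_empty_of_isEmpty]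
  | inr _ =>
    rw [ENNReal.ofReal_div_of_pos (by exact_mod_cast Fintype.card_pos), ENNReal.ofReal_natCast,
      ENNReal.ofReal_natCast]

end avg

section pairing
variable {V : Type} [Fintype V] [DecidableEq V] {q : ℕ}

@[simp] theorem p_inv (σ : Pairing V q) (h : HE V q) : σ (σ h) = h := (σ.2 h).1

theorem p_ne (σ : Pairing V q) (h : HE V q) : σ h ≠ h := (σ.2 h).2

theorem p_inj (σ : Pairing V q) : Function.Injective σ := σ.1.injective

theorem p_eq_iff (σ : Pairing V q) {x y : HE V q} : σ x = y ↔ x = σ y :=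
  ⟨fun h => by rw [← h, p_inv], fun h => by rw [h, p_inv]⟩

theorem p_ext {σ σ' : Pairing V q} (h : ∀ x, σ x = σ' x) : σ = σ' := Subtype.ext (Equiv.ext h)

theorem p_switch_apply (σ : Pairing V q) (a b x : HE V q) :
    switch σ a b x = Equiv.swap a b (σ (Equiv.swap a b x)) := rfl

@[simp] theorem p_switch_switch (σ : Pairing V q) (a b : HE V q) : switch (switch σ a b) a b = σ :=
  p_ext fun x => by simp only [p_switch_apply, Equiv.swap_apply_self]

theorem p_switch_comm (σ : Pairing V q) (a b : HE V q) : switch σ a b = switch σ b a :=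
  p_ext fun x => by simp only [p_switch_apply, Equiv.swap_comm a b]

theorem p_switch_of_ne (σ : Pairing V q) {a b x : HE V q} (h1 : x ≠ a) (h2 : x ≠ b) (h3 : x ≠ σ a)
    (h4 : x ≠ σ b) : switch σ a b x = σ x := by
  rw [p_switch_apply, Equiv.swap_apply_of_ne_of_ne h1 h2,
    Equiv.swap_apply_of_ne_of_ne (fun h => h3 ((p_eq_iff σ).1 h)) fun h => h4 ((p_eq_iff σ).1 h)]

theorem p_switch_left (σ : Pairing V q) {a b : HE V q} (h : b ≠ σ a) : switch σ a b a = σ b := by
  rw [p_switch_apply, Equiv.swap_apply_left,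
    Equiv.swap_apply_of_ne_of_ne (fun h' => h ((p_eq_iff σ).1 h')) (p_ne σ b)]

theorem p_switch_right (σ : Pairing V q) {a b : HE V q} (h : b ≠ σ a) : switch σ a b b = σ a := by
  rw [p_switch_comm, p_switch_left σ fun h' => h ((p_eq_iff σ).1 h'.symm)]

/-- the switch as an involution of the set of pairings -/
def p_switchE (a b : HE V q) : Pairing V q ≃ Pairing V q :=
  Function.Involutive.toPerm (fun σ => switch σ a b) fun σ => p_switch_switch σ a b

theorem p_card_HE : (Fintype.card (HE V q) : ℝ) = Fintype.card V * (q + 1) := by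
  simp [HE]

theorem p_div_HE {t : ℝ} (ht : 0 ≤ t) : t / Fintype.card (HE V q) ≤ t / Fintype.card V := by
  rw [p_card_HE]
  rcases (Nat.cast_nonneg (α := ℝ) (Fintype.card V)).eq_or_lt with h | h
  · simp [← h]
  · exact div_le_div_of_nonneg_left ht h (le_mul_of_one_le_right h.le (by linarith [Nat.cast_nonneg (α := ℝ) q]))

/-- the half-edges at a set of vertices -/
theorem p_card_at (Z : Finset V) : (Z ×ˢ (Finset.univ : Finset (Fin (q + 1)))).card = Z.card * (q + 1) := by
  simp

theorem p_rot_zero (h : HE V q) : rot h 0 = h := by simp [rot]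

theorem p_rot_inj (h : HE V q) {k k' : Fin (q + 1)} (e : rot h k = rot h k') : k = k' :=
  add_left_cancel (congrArg Prod.snd e)

theorem p_rot_succ_ne (h : HE V q) (j : Fin q) : rot h j.succ ≠ h := fun e =>
  Fin.succ_ne_zero j (p_rot_inj h (e.trans (p_rot_zero h).symm))

theorem p_exists_rot {h h' : HE V q} (e : h'.1 = h.1) : ∃ k, h' = rot h k :=
  ⟨h'.2 - h.2, Prod.ext e (by simp [rot])⟩

theorem p_rot_injective (k : Fin (q + 1)) : Function.Injective fun h : HE V q => rot h k := fun _ _ e =>
  Prod.ext (congrArg Prod.fst e :) (add_right_cancel (congrArg Prod.snd e :))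

theorem p_walk_append (σ : Pairing V q) (h : HE V q) (l l' : List (Fin q)) :
    walk σ h (l ++ l') = walk σ (walk σ h l) l' := by
  induction l generalizing h with
  | nil => rfl
  | cons j l ih => exact ih _

theorem p_walk_concat (σ : Pairing V q) (h : HE V q) (l : List (Fin q)) (j : Fin q) :
    walk σ h (l ++ [j]) = σ (rot (walk σ h l) j.succ) := p_walk_append σ h l [j]

theorem p_walk_injective (σ : Pairing V q) (l : List (Fin q)) : Function.Injective fun h => walk σ h l := by
  induction l with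
  | nil => exact fun _ _ e => e
  | cons j l ih => exact fun _ _ e => p_rot_injective _ (p_inj σ (ih e))

/-- Resampling lemma.  `K σ` is a `σ`-invariant stopping set, `a σ` the next half-edge to be queried, `T σ` a set of
targets. -/
theorem p_resample (K T : Pairing V q → Finset (HE V q)) (a : Pairing V q → HE V q) (m t : ℕ)
    (hK : ∀ σ, (K σ).card ≤ m) (hT : ∀ σ, (T σ).card ≤ t) (hinv : ∀ σ, ∀ x ∈ K σ, σ x ∈ K σ)
    (hloc : ∀ σ σ' : Pairing V q, (∀ x ∈ K σ, σ' x = σ x) → a σ' = a σ ∧ T σ' = T σ) :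
    frac (fun σ => a σ ∉ K σ ∧ σ (a σ) ∈ T σ) ≤ ((t + m + 1 : ℕ) : ℝ) / Fintype.card (HE V q) := by
  classical
  set B := Finset.univ.filter fun σ => a σ ∉ K σ ∧ σ (a σ) ∈ T σ with hB
  let S₁ : Finset (Σ _ : Pairing V q, HE V q) := B.sigma fun σ => (insert (a σ) (K σ))ᶜ
  let S₂ : Finset (Σ _ : Pairing V q, HE V q) := Finset.univ.sigma T
  have key : ∀ p ∈ S₁, a (switch p.1 (p.1 (a p.1)) p.2) = a p.1 ∧
      T (switch p.1 (p.1 (a p.1)) p.2) = T p.1 ∧ switch p.1 (p.1 (a p.1)) p.2 (a p.1) = p.2 := by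
    rintro ⟨σ, b⟩ hp
    simp only [S₁, hB, Finset.mem_sigma, Finset.mem_filter, Finset.mem_univ, true_and, Finset.mem_compl,
      Finset.mem_insert, not_or] at hp
    obtain ⟨⟨h1, -⟩, h2, h3⟩ := hp
    have := hloc σ (switch σ (σ (a σ)) b) fun x hx => p_switch_of_ne σ
      (fun e => h1 (by simpa [e] using hinv σ x hx)) (fun e => h3 (e ▸ hx))
      (fun e => h1 (by simpa [e] using hx)) fun e => h3 (by simpa [e] using hinv σ x hx)
    refine ⟨this.1, this.2, ?_⟩
    rw [p_switch_apply, Equiv.swap_apply_of_ne_of_ne (p_ne σ _).symm (Ne.symm h2), Equiv.swap_apply_left]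
  have h12 : S₁.card ≤ S₂.card := by
    refine Finset.card_le_card_of_injOn (fun p => ⟨switch p.1 (p.1 (a p.1)) p.2, p.1 (a p.1)⟩)
      (fun p hp => ?_) fun p hp p' hp' e => ?_
    · have h1 := (key p hp).2.1
      have h2 := (Finset.mem_filter.1 (Finset.mem_sigma.1 hp).1).2.2
      exact Finset.mem_coe.2 (Finset.mem_sigma.2 ⟨Finset.mem_univ _, by simpa only [h1] using h2⟩)
    · obtain ⟨a1, -, a2⟩ := key p hp
      obtain ⟨b1, -, b2⟩ := key p' hp'
      have e1 : switch p.1 (p.1 (a p.1)) p.2 = switch p'.1 (p'.1 (a p'.1)) p'.2 := congrArg Sigma.fst e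
      have e2 : p.1 (a p.1) = p'.1 (a p'.1) := congrArg (fun x : (Σ _ : Pairing V q, HE V q) => x.2) e
      have e3 : a p.1 = a p'.1 := by rw [← a1, e1, b1]
      have e4 : p.2 = p'.2 := by rw [← a2, e1, e3, b2]
      have e5 : p.1 = p'.1 := by
        rw [← p_switch_switch p.1 (p.1 (a p.1)) p.2, e1, e2, e4, p_switch_switch]
      exact Sigma.ext e5 (heq_of_eq e4)
  have h1 : B.card * Fintype.card (HE V q) ≤ S₁.card + B.card * (m + 1) := by
    rw [Finset.card_sigma, ← smul_eq_mul, ← smul_eq_mul, ← Finset.sum_const, ← Finset.sum_const,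
      ← Finset.sum_add_distrib]
    refine Finset.sum_le_sum fun σ _ => ?_
    have := Finset.card_add_card_compl (insert (a σ) (K σ))
    have := Finset.card_insert_le (a σ) (K σ)
    have := hK σ
    omega
  have h2 : S₂.card ≤ Fintype.card (Pairing V q) * t := by
    rw [Finset.card_sigma, ← smul_eq_mul, ← Finset.card_univ, ← Finset.sum_const]
    exact Finset.sum_le_sum fun σ _ => hT σ
  have h3 : B.card * (m + 1) ≤ Fintype.card (Pairing V q) * (m + 1) :=
    Nat.mul_le_mul_right _ (Finset.card_le_univ _)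
  have h4 : B.card * Fintype.card (HE V q) ≤ (t + m + 1) * Fintype.card (Pairing V q) := by nlinarith
  rw [p_frac_eq, ← hB]
  cases isEmpty_or_nonempty (Pairing V q) with
  | inl _ => simp only [Fintype.card_eq_zero, Nat.cast_zero, div_zero]; positivity
  | inr hn =>
    have : Nonempty (HE V q) := ⟨a hn.some⟩
    rw [div_le_div_iff₀ (by exact_mod_cast Fintype.card_pos) (by exact_mod_cast Fintype.card_pos)]
    exact_mod_cast h4

end pairing

end Crest.Agent.R166
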