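import Crest.Agent.R166.P.Basic

/-!
# R166/P/Tree: short cycles are rare (`StP3`)
-/

set_option autoImplicit false
set_option linter.unusedSectionVars false

noncomputable section

namespace Crest.Agent.R166

/-- words indexing the non-root vertices of the `(q+1)`-regular tree -/
abbrev p_W (q : ℕ) : Type := Fin (q + 1) × List (Fin q)

/-- lists of length `≤ R` -/
def p_L (q R : ℕ) : Finset (List (Fin q)) := (List.finite_length_le (Fin q) R).toFinset

theorem p_mem_L {q R : ℕ} {l : List (Fin q)} : l ∈ p_L q R ↔ l.length ≤ R := by simp [p_L]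

/-- words of depth `≤ R` -/
def p_S (q R : ℕ) : Finset (p_W q) := Finset.univ ×ˢ p_L q R

theorem p_mem_S {q R : ℕ} {w : p_W q} : w ∈ p_S q R ↔ w.2.length ≤ R := by simp [p_S, p_mem_L]

/-- prefix closed sets of words -/
def p_Cl {q : ℕ} (S : Finset (p_W q)) : Prop := ∀ k l j, (k, l ++ [j]) ∈ S → (k, l) ∈ S

variable {V : Type} [Fintype V] [DecidableEq V] {q : ℕ}

/-- the half-edge through which the walk `w` from `h` arrives -/
def p_arr (σ : Pairing V q) (h : HE V q) (w : p_W q) : HE V q := walk σ (σ (rot h w.1)) w.2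

theorem p_arr_nil (σ : Pairing V q) (h : HE V q) (k : Fin (q + 1)) : p_arr σ h (k, []) = σ (rot h k) := rfl

theorem p_arr_concat (σ : Pairing V q) (h : HE V q) (k : Fin (q + 1)) (l : List (Fin q)) (j : Fin q) :
    p_arr σ h (k, l ++ [j]) = σ (rot (p_arr σ h (k, l)) j.succ) := p_walk_concat ..

theorem p_arr_injective (σ : Pairing V q) (w : p_W q) : Function.Injective fun h => p_arr σ h w :=
  fun _ _ e => p_rot_injective _ (p_inj σ (p_walk_injective σ w.2 e))

def p_Inj (σ : Pairing V q) (h : HE V q) (S : Finset (p_W q)) : Prop :=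
  (∀ w ∈ S, (p_arr σ h w).1 ≠ h.1) ∧ ∀ w ∈ S, ∀ w' ∈ S, (p_arr σ h w).1 = (p_arr σ h w').1 → w = w'

theorem p_treeLike_iff (σ : Pairing V q) (R : ℕ) (h : HE V q) : TreeLike σ R h ↔ p_Inj σ h (p_S q R) := by
  constructor
  · rintro ⟨h1, h2⟩
    exact ⟨fun w hw => h1 w.1 w.2 (p_mem_S.1 hw), fun w hw w' hw' e =>
      Prod.ext_iff.2 (h2 w.1 w'.1 w.2 w'.2 (p_mem_S.1 hw) (p_mem_S.1 hw') e)⟩
  · rintro ⟨h1, h2⟩
    exact ⟨fun k l hl => h1 (k, l) (p_mem_S.2 hl), fun k k' l l' hl hl' e =>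
      Prod.ext_iff.1 (h2 (k, l) (p_mem_S.2 hl) (k', l') (p_mem_S.2 hl') e)⟩

/-- the explored half-edges -/
def p_K (σ : Pairing V q) (h : HE V q) (S : Finset (p_W q)) : Finset (HE V q) :=
  S.image (p_arr σ h) ∪ S.image fun w => σ (p_arr σ h w)

theorem p_mem_K {σ : Pairing V q} {h x : HE V q} {S : Finset (p_W q)} :
    x ∈ p_K σ h S ↔ ∃ w ∈ S, x = p_arr σ h w ∨ x = σ (p_arr σ h w) := by
  simp only [p_K, Finset.mem_union, Finset.mem_image]
  constructor
  · rintro (⟨w, hw, rfl⟩ | ⟨w, hw, rfl⟩)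
    · exact ⟨w, hw, Or.inl rfl⟩
    · exact ⟨w, hw, Or.inr rfl⟩
  · rintro ⟨w, hw, rfl | rfl⟩
    · exact Or.inl ⟨w, hw, rfl⟩
    · exact Or.inr ⟨w, hw, rfl⟩

theorem p_card_K (σ : Pairing V q) (h : HE V q) (S : Finset (p_W q)) : (p_K σ h S).card ≤ 2 * S.card :=
  (Finset.card_union_le _ _).trans (by
    have := Finset.card_image_le (s := S) (f := p_arr σ h)
    have := Finset.card_image_le (s := S) (f := fun w => σ (p_arr σ h w))
    omega)

theorem p_K_inv {σ : Pairing V q} {h x : HE V q} {S : Finset (p_W q)} (hx : x ∈ p_K σ h S) :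
    σ x ∈ p_K σ h S := by
  obtain ⟨w, hw, rfl | rfl⟩ := p_mem_K.1 hx
  · exact p_mem_K.2 ⟨w, hw, Or.inr rfl⟩
  · exact p_mem_K.2 ⟨w, hw, Or.inl (p_inv _ _)⟩

theorem p_arr_loc {σ σ' : Pairing V q} {h : HE V q} {S : Finset (p_W q)} (hS : p_Cl S)
    (hσ : ∀ x ∈ p_K σ h S, σ' x = σ x) (k : Fin (q + 1)) (l : List (Fin q)) (hw : (k, l) ∈ S) :
    p_arr σ' h (k, l) = p_arr σ h (k, l) := by
  induction l using List.reverseRecOn with
  | nil => exact hσ _ (p_mem_K.2 ⟨_, hw, Or.inr (p_inv _ _).symm⟩)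
  | append_singleton l j ih =>
    rw [p_arr_concat, p_arr_concat, ih (hS k l j hw)]
    exact hσ _ (p_mem_K.2 ⟨_, hw, Or.inr (by rw [p_arr_concat, p_inv])⟩)

/-- the query of a new leaf is fresh -/
theorem p_fresh {σ : Pairing V q} {h : HE V q} {S : Finset (p_W q)} {w : p_W q} (hS : p_Cl S)
    (hS' : p_Cl (insert w S)) (hw : w ∉ S) (hI : p_Inj σ h S) : σ (p_arr σ h w) ∉ p_K σ h S := by
  obtain ⟨k, l⟩ := w
  have hpar : ∀ l' j, l = l' ++ [j] → (k, l') ∈ S := fun l' j e => by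
    rcases Finset.mem_insert.1 (hS' k l' j (e ▸ Finset.mem_insert_self _ _)) with h1 | h1
    · have := congrArg (fun w : p_W q => w.2.length) h1
      simp [e] at this
    · exact h1
  intro hx
  obtain ⟨⟨k', l'⟩, hw', e | e⟩ := p_mem_K.1 hx
  · rcases List.eq_nil_or_concat' l with rfl | ⟨m, j, rfl⟩
    · rw [p_arr_nil, p_inv] at e
      exact hI.1 _ hw' (by rw [← e]; rfl)
    · rw [p_arr_concat, p_inv] at e
      have := hI.2 _ (hpar m j rfl) _ hw' (by rw [← e]; rfl)
      rw [← this] at e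
      exact p_rot_succ_ne _ j e
  · rcases List.eq_nil_or_concat' l with rfl | ⟨m, j, rfl⟩ <;>
      rcases List.eq_nil_or_concat' l' with rfl | ⟨m', j', rfl⟩
    · rw [p_arr_nil, p_arr_nil, p_inv, p_inv] at e
      exact hw (p_rot_inj h e ▸ hw')
    · rw [p_arr_nil, p_arr_concat, p_inv, p_inv] at e
      exact hI.1 _ (hS _ _ _ hw') (congrArg Prod.fst e :).symm
    · rw [p_arr_nil, p_arr_concat, p_inv, p_inv] at e
      exact hI.1 _ (hpar m j rfl) (congrArg Prod.fst e :)
    · rw [p_arr_concat, p_arr_concat, p_inv, p_inv] at e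
      have := hI.2 _ (hpar m j rfl) _ (hS _ _ _ hw') (congrArg Prod.fst e :)
      rw [← this] at e
      obtain ⟨rfl, rfl⟩ := Prod.ext_iff.1 this
      exact hw (Fin.succ_injective _ (p_rot_inj _ e) ▸ hw')

theorem p_step (h : HE V q) {S : Finset (p_W q)} {w : p_W q} (hS : p_Cl S) (hS' : p_Cl (insert w S))
    (hw : w ∉ S) : frac (fun σ : Pairing V q => p_Inj σ h S ∧ ¬ p_Inj σ h (insert w S)) ≤
      (((S.card + 1) * (q + 1) + 2 * S.card + 1 : ℕ) : ℝ) / Fintype.card (HE V q) := by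
  refine le_trans (p_frac_mono fun σ hσ => ?_) (p_resample (fun σ => p_K σ h S)
    (fun σ => insert h.1 (S.image fun u => (p_arr σ h u).1) ×ˢ Finset.univ) (fun σ => σ (p_arr σ h w)) _ _
    (fun σ => p_card_K σ h S) (fun σ => ?_) (fun σ x => p_K_inv) fun σ σ' hσ => ⟨?_, ?_⟩)
  · refine ⟨p_fresh hS hS' hw hσ.1, ?_⟩
    rw [p_inv]
    by_contra hn
    simp only [Finset.mem_product, Finset.mem_univ, and_true, Finset.mem_insert, Finset.mem_image, not_or,
      not_exists, not_and] at hn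
    refine hσ.2 ⟨fun u hu => ?_, fun u hu u' hu' e => ?_⟩
    · rcases Finset.mem_insert.1 hu with rfl | hu
      · exact hn.1
      · exact hσ.1.1 u hu
    · rcases Finset.mem_insert.1 hu with rfl | hv <;> rcases Finset.mem_insert.1 hu' with rfl | hv'
      · rfl
      · exact absurd e.symm (hn.2 _ hv')
      · exact absurd e (hn.2 _ hv)
      · exact hσ.1.2 u hv u' hv' e
  · rw [p_card_at]
    exact Nat.mul_le_mul_right _ ((Finset.card_insert_le _ _).trans (Nat.succ_le_succ Finset.card_image_le))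
  · obtain ⟨k, l⟩ := w
    rcases List.eq_nil_or_concat' l with rfl | ⟨m, j, rfl⟩
    · rw [p_arr_nil, p_arr_nil, p_inv, p_inv]
    · rw [p_arr_concat, p_arr_concat, p_inv, p_inv, p_arr_loc hS hσ]
      rcases Finset.mem_insert.1 (hS' k m j (Finset.mem_insert_self _ _)) with h1 | h1
      · have := congrArg (fun w : p_W q => w.2.length) h1
        simp at this
      · exact h1
  · rw [Finset.image_congr fun u hu => by rw [p_arr_loc hS hσ u.1 u.2 hu]]

theorem p_inj_bound (q : ℕ) (S : Finset (p_W q)) : p_Cl S → ∃ C : ℝ, 0 ≤ C ∧ ∀ (V : Type) [Fintype V]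
    [DecidableEq V] (h : HE V q), frac (fun σ : Pairing V q => ¬ p_Inj σ h S) ≤ C / Fintype.card (HE V q) := by
  induction S using Finset.induction_on_max_value (fun w : p_W q => w.2.length) with
  | empty =>
    refine fun _ => ⟨0, le_rfl, fun V _ _ h => ?_⟩
    rw [zero_div, p_frac_eq_zero fun σ hσ => hσ ⟨by simp, by simp⟩]
  | insert w S hw hmax ih =>
    intro hS'
    have hS : p_Cl S := fun k l j hm => by
      rcases Finset.mem_insert.1 (hS' k l j (Finset.mem_insert_of_mem hm)) with h1 | h1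
      · have := hmax _ hm
        rw [← h1] at this
        simp at this
      · exact h1
    obtain ⟨C, hC0, hC⟩ := ih hS
    refine ⟨C + ((S.card + 1) * (q + 1) + 2 * S.card + 1 : ℕ), by positivity, fun V _ _ h => ?_⟩
    rw [add_div]
    refine le_trans (p_frac_or_le fun σ hσ => ?_) (add_le_add (hC V h) (p_step h hS hS' hw))
    by_cases h1 : p_Inj σ h S
    · exact Or.inr ⟨h1, hσ⟩
    · exact Or.inl h1

theorem p_Cl_S (q R : ℕ) : p_Cl (p_S q R) := fun k l j hm => by
  rw [p_mem_S] at hm ⊢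
  simp only [List.length_append, List.length_singleton] at hm
  exact Nat.le_of_succ_le hm

/-- pointwise version of `StP3` -/
theorem p_treeLike_bound (q R : ℕ) : ∃ C : ℝ, 0 ≤ C ∧ ∀ (V : Type) [Fintype V] [DecidableEq V] (h : HE V q),
    frac (fun σ : Pairing V q => ¬ TreeLike σ R h) ≤ C / Fintype.card V := by
  obtain ⟨C, hC0, hC⟩ := p_inj_bound q (p_S q R) (p_Cl_S q R)
  refine ⟨C, hC0, fun V _ _ h => ?_⟩
  simp only [p_treeLike_iff]
  exact (hC V h).trans (p_div_HE hC0)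

theorem p_treeLike_avg (q R : ℕ) : ∃ C : ℝ, 0 ≤ C ∧ ∀ (V : Type) [Fintype V] [DecidableEq V],
    (avg fun σ : Pairing V q => frac fun h : HE V q => ¬ TreeLike σ R h) ≤ C / Fintype.card V := by
  obtain ⟨C, hC0, hC⟩ := p_treeLike_bound q R
  refine ⟨C, hC0, fun V _ _ => ?_⟩
  rw [p_frac_comm]
  exact p_avg_le (by positivity) (hC V)

theorem stP3 : StP3 := fun q R =>
  let ⟨C, _, hC⟩ := p_treeLike_avg q R
  ⟨C, hC⟩

end Crest.Agent.R166
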