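import Crest.Agent.R166.P.Basic

/-!
# R166/P/Graph: the uniform regular graph is the pairing model conditioned on simplicity (`StP2`)
-/

set_option autoImplicit false
set_option linter.unusedSectionVars false

open MeasureTheory ProbabilityTheory Classical

noncomputable section

namespace Crest.Agent.R166

open Crest.ProbabilityR.RandomMatrix

variable {V : Type} [Fintype V] [DecidableEq V] {q : ℕ}

/-- the graph of a pairing -/
def p_G (σ : Pairing V q) : SimpleGraph V := SimpleGraph.fromRel fun u v => ∃ i, (σ (u, i)).1 = v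

theorem p_G_adj {σ : Pairing V q} (hs : IsSimple σ) (u v : V) : (p_G σ).Adj u v ↔ ∃ i, (σ (u, i)).1 = v := by
  rw [p_G, SimpleGraph.fromRel_adj]
  constructor
  · rintro ⟨-, h | ⟨i, rfl⟩⟩
    · exact h
    · exact ⟨(σ (v, i)).2, by rw [Prod.mk.eta, p_inv]⟩
  · rintro ⟨i, rfl⟩
    exact ⟨(hs.1 (u, i)).symm, Or.inl ⟨i, rfl⟩⟩

theorem p_G_inj {σ : Pairing V q} (hs : IsSimple σ) (u : V) : Function.Injective fun i => (σ (u, i)).1 :=
  fun i j e => congrArg Prod.snd (hs.2 (u, i) (u, j) rfl e)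

theorem p_G_deg {σ : Pairing V q} (hs : IsSimple σ) (u : V) :
    (Finset.univ.filter fun w => (p_G σ).Adj u w).card = q + 1 := by
  have : (Finset.univ.filter fun w => (p_G σ).Adj u w) = Finset.univ.image fun i => (σ (u, i)).1 := by
    ext w; simp [p_G_adj hs]
  rw [this, Finset.card_image_of_injective _ (p_G_inj hs u), Finset.card_univ, Fintype.card_fin]

theorem p_G_adjMatrix {σ : Pairing V q} (hs : IsSimple σ) : (p_G σ).adjMatrix ℝ = adj σ := by
  ext u v
  rw [SimpleGraph.adjMatrix_apply, adj]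
  split_ifs with h
  · obtain ⟨i, rfl⟩ := (p_G_adj hs u v).1 h
    rw [Finset.card_eq_one.2 ⟨i, ?_⟩, Nat.cast_one]
    ext j
    simp only [Finset.mem_filter, Finset.mem_univ, true_and, Finset.mem_singleton]
    exact ⟨fun e => p_G_inj hs u e, fun e => by rw [e]⟩
  · rw [Finset.filter_false_of_mem fun i _ e => h ((p_G_adj hs u v).2 ⟨i, e⟩)]
    simp

section fibre
variable {G : SimpleGraph V} (e : ∀ v, Fin (q + 1) ≃ {w // G.Adj v w})

/-- the pairing attached to an enumeration of the neighbours of every vertex -/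
def p_g (h : HE V q) : HE V q := ((e h.1 h.2).1, (e (e h.1 h.2).1).symm ⟨h.1, (e h.1 h.2).2.symm⟩)

theorem p_g_iff (h h' : HE V q) : p_g e h = h' ↔ (e h.1 h.2).1 = h'.1 ∧ (e h'.1 h'.2).1 = h.1 := by
  constructor
  · rintro rfl
    exact ⟨rfl, congrArg Subtype.val (Equiv.apply_symm_apply (e (e h.1 h.2).1) ⟨h.1, (e h.1 h.2).2.symm⟩)⟩
  · obtain ⟨w, j⟩ := h'
    rintro ⟨rfl, h2⟩
    exact Prod.ext rfl ((Equiv.symm_apply_eq _).2 (Subtype.ext h2.symm))

theorem p_g_invol : Function.Involutive (p_g e) := fun h =>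
  (p_g_iff e _ _).2 ((p_g_iff e h _).1 rfl).symm

def p_pair : Pairing V q :=
  ⟨(p_g_invol e).toPerm, fun h => ⟨p_g_invol e h, fun h' => (e h.1 h.2).2.ne' (congrArg Prod.fst h')⟩⟩

theorem p_pair_apply (h : HE V q) : p_pair e h = p_g e h := rfl

theorem p_pair_fst (v : V) (i : Fin (q + 1)) : (p_pair e (v, i)).1 = (e v i).1 := rfl

theorem p_pair_simple : IsSimple (p_pair e) := by
  refine ⟨fun h => (e h.1 h.2).2.ne', ?_⟩
  rintro ⟨v, i⟩ ⟨w, j⟩ (rfl : v = w) h
  exact Prod.ext rfl ((e v).injective (Subtype.ext h))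

theorem p_pair_G : p_G (p_pair e) = G := by
  ext u v
  rw [p_G_adj (p_pair_simple e)]
  exact ⟨fun ⟨i, h⟩ => h ▸ (e u i).2, fun h => ⟨(e u).symm ⟨v, h⟩, by simp [p_pair_fst]⟩⟩

end fibre

theorem p_fibre_card {G : SimpleGraph V} (hG : ∀ v, (Finset.univ.filter fun w => G.Adj v w).card = q + 1) :
    ((Finset.univ.filter fun σ : Pairing V q => IsSimple σ).filter fun σ => p_G σ = G).card =
      (q + 1).factorial ^ Fintype.card V := by
  have h1 : Fintype.card (∀ v, Fin (q + 1) ≃ {w // G.Adj v w}) = (q + 1).factorial ^ Fintype.card V := by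
    rw [Fintype.card_pi, ← Finset.card_univ, ← Finset.prod_const]
    refine Finset.prod_congr rfl fun v _ => ?_
    rw [Fintype.card_equiv (Fintype.equivOfCardEq (by rw [Fintype.card_subtype, hG, Fintype.card_fin])),
      Fintype.card_fin]
  rw [← h1, ← Finset.card_univ]
  symm
  refine Finset.card_bij (fun e _ => p_pair e) (fun e _ => ?_) (fun e _ e' _ h => ?_) fun σ hσ => ?_
  · simp [p_pair_simple, p_pair_G]
  · funext v
    ext i
    rw [← p_pair_fst, h, p_pair_fst]
  · simp only [Finset.mem_filter, Finset.mem_univ, true_and] at hσ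
    obtain ⟨hs, rfl⟩ := hσ
    refine ⟨fun v => Equiv.ofBijective (fun i => ⟨(σ (v, i)).1, (p_G_adj hs _ _).2 ⟨i, rfl⟩⟩)
      ⟨fun i j h => p_G_inj hs v (congrArg Subtype.val h), fun w => ?_⟩, Finset.mem_univ _, p_ext fun h => ?_⟩
    · obtain ⟨i, hi⟩ := (p_G_adj hs _ _).1 w.2
      exact ⟨i, Subtype.ext hi⟩
    · rw [p_pair_apply, p_g_iff]
      refine ⟨rfl, ?_⟩
      show (σ ((σ h).1, (σ h).2)).1 = h.1
      rw [Prod.mk.eta, p_inv]

theorem stP2 : StP2 := by
  intro n q F F' hF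
  have e0 : {σ : Pairing (Fin n) q | IsSimple σ} =
      ((Finset.univ.filter fun σ : Pairing (Fin n) q => IsSimple σ : Finset _) : Set _) := by ext; simp
  have hm : ∀ σ ∈ Finset.univ.filter fun σ : Pairing (Fin n) q => IsSimple σ,
      p_G σ ∈ regularGraphs n (q + 1) := fun σ hσ =>
    Finset.mem_filter.2 ⟨Finset.mem_univ _, fun v => by convert p_G_deg (Finset.mem_filter.1 hσ).2 v⟩
  have hc : ∀ G ∈ regularGraphs n (q + 1), ((Finset.univ.filter fun σ : Pairing (Fin n) q => IsSimple σ).filter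
      fun σ => p_G σ = G).card = (q + 1).factorial ^ n := fun G hG => by
    have := p_fibre_card (q := q) (G := G) fun v => by convert (Finset.mem_filter.1 hG).2 v
    rwa [Fintype.card_fin] at this
  rw [e0, p_integral_uniformOn, ← Finset.sum_fiberwise_of_maps_to hm, Finset.card_eq_sum_card_fiberwise hm,
    Finset.sum_congr rfl hc, Finset.sum_congr rfl (g := fun G => (((q + 1).factorial ^ n : ℕ) : ℝ) * F G)
      fun G hG => ?_, ← Finset.mul_sum, Finset.sum_const, smul_eq_mul, Nat.cast_mul, mul_comm (_ : ℝ) (_ : ℕ),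
    mul_div_mul_left _ _ (by positivity), regularAverage]
  rw [← hc G hG, ← nsmul_eq_mul, ← Finset.sum_const]
  refine Finset.sum_congr rfl fun σ hσ => ?_
  obtain ⟨h1, rfl⟩ := Finset.mem_filter.1 hσ
  rw [hF, ← p_G_adjMatrix (Finset.mem_filter.1 h1).2]

end Crest.Agent.R166
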