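import Crest.Agent.R166.P.Tree

/-!
# R166/P/Lln: law of large numbers for the environment (`StP4`)
-/

set_option autoImplicit false
set_option linter.unusedSectionVars false

open MeasureTheory ProbabilityTheory Filter Topology
open scoped ENNReal

noncomputable section

namespace Crest.Agent.R166

/-- the vertices of the tree of depth `R + 1` -/
abbrev p_I (q R : ℕ) : Type := Option (p_S q R)

def p_res {q : ℕ} (R : ℕ) (e : SEnv q) : p_I q R → II
  | none => e.1
  | some w => e.2 w.1.1 w.1.2

def p_ext' {q : ℕ} (R : ℕ) (x : p_I q R → II) : SEnv q :=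
  (x none, fun k l => if h : (k, l) ∈ p_S q R then x (some ⟨_, h⟩) else II0)

theorem p_meas_res {q : ℕ} (R : ℕ) : Measurable (p_res (q := q) R) :=
  measurable_pi_lambda _ fun i => by
    cases i with
    | none => exact measurable_fst
    | some w => exact (measurable_pi_apply w.1.2).comp ((measurable_pi_apply w.1.1).comp measurable_snd)

theorem p_meas_ext {q : ℕ} (R : ℕ) : Measurable (p_ext' (q := q) R) := by
  refine (measurable_pi_apply none).prodMk (measurable_pi_lambda _ fun k => measurable_pi_lambda _ fun l => ?_)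
  split_ifs
  · exact measurable_pi_apply _
  · exact measurable_const

theorem p_approx {q : ℕ} (φ : C(SEnv q, ℝ)) {δ : ℝ} (hδ : 0 < δ) :
    ∃ R : ℕ, ∀ e, |φ e - φ (p_ext' R (p_res R e))| ≤ δ := by
  have h1 : TendstoUniformly (fun (R : ℕ) (e : SEnv q) => p_ext' R (p_res R e)) id atTop := by
    rw [tendstoUniformly_iff_tendsto, uniformity_prod, tendsto_inf, tendsto_comap_iff, tendsto_comap_iff]
    constructor
    · refine (tendsto_principal.2 (Eventually.of_forall fun _ => ?_)).mono_right refl_le_uniformity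
      exact rfl
    · rw [Pi.uniformity, tendsto_iInf]
      intro k
      rw [tendsto_comap_iff, Pi.uniformity, tendsto_iInf]
      intro l
      rw [tendsto_comap_iff]
      refine (tendsto_principal.2 ?_).mono_right refl_le_uniformity
      filter_upwards [tendsto_fst.eventually (eventually_ge_atTop l.length)] with x hx
      show x.2.2 k l = if h : (k, l) ∈ p_S q x.1 then p_res x.1 x.2 (some ⟨_, h⟩) else II0
      rw [dif_pos (p_mem_S.2 hx)]
      rfl
  have h2 := (CompactSpace.uniformContinuous_of_continuous φ.continuous).comp_tendstoUniformly h1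
  obtain ⟨R, hR⟩ := (Metric.tendstoUniformly_iff.1 h2 δ hδ).exists
  exact ⟨R, fun e => (hR e).le⟩

theorem p_law_res (q R : ℕ) (π : Measure II) [IsProbabilityMeasure π] :
    (starLaw q π).map (p_res R) = Measure.pi fun _ => π := by
  classical
  refine (Measure.pi_eq fun s hs => ?_).symm
  let t : p_W q → Set II := fun w => if h : w ∈ p_S q R then s (some ⟨w, h⟩) else Set.univ
  have ht : ∀ w, MeasurableSet (t w) := fun w => by
    simp only [t]; split_ifs
    · exact hs _
    · exact .univ
  have e : p_res R ⁻¹' Set.pi Set.univ s =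
      s none ×ˢ Set.pi Set.univ fun k => Set.pi (p_L q R) fun l => t (k, l) := by
    ext e
    simp only [Set.mem_preimage, Set.mem_pi, Set.mem_univ, true_imp_iff, Set.mem_prod, Finset.mem_coe]
    constructor
    · refine fun h => ⟨h none, fun k l hl => ?_⟩
      have hm : (k, l) ∈ p_S q R := p_mem_S.2 (p_mem_L.1 hl)
      simp only [t, dif_pos hm]
      exact h (some ⟨_, hm⟩)
    · rintro ⟨h1, h2⟩ (_ | w)
      · exact h1
      · have := h2 w.1.1 w.1.2 (p_mem_L.2 (p_mem_S.1 w.2))
        simp only [t, dif_pos w.2] at this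
        exact this
  have : IsProbabilityMeasure (envLaw q π) := by unfold envLaw; infer_instance
  rw [Measure.map_apply (p_meas_res R) (.univ_pi hs), e, starLaw, Measure.prod_prod, Measure.pi_pi,
    Fintype.prod_option]
  congr 1
  simp only [envLaw]
  rw [Finset.prod_congr rfl fun k _ => Measure.infinitePi_pi _ fun l _ => ht (k, l),
    ← Finset.prod_product' (f := fun k l => π (t (k, l))), ← Finset.prod_coe_sort]
  exact Finset.prod_congr rfl fun w _ => congrArg π (dif_pos w.2)

section indep
variable {V I : Type} [Fintype V] [DecidableEq V] [Fintype I] (π : Measure II) [IsProbabilityMeasure π]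

theorem p_indep : iIndepFun (fun (v : V) (ω : V → II) => ω v) (Measure.pi fun _ => π) :=
  iIndepFun_pi (X := fun _ => id) fun _ => aemeasurable_id

theorem p_law_comp {ι : I → V} (hι : Function.Injective ι) :
    (Measure.pi fun _ : V => π).map (fun ω i => ω (ι i)) = Measure.pi fun _ => π := by
  rw [((p_indep π).precomp hι).map_fun_eq_pi_map fun i => (measurable_pi_apply _).aemeasurable]
  congr 1
  funext i
  exact (measurePreserving_eval (fun _ : V => π) (ι i)).map_eq

theorem p_cov {ι ι' : I → V} (hι : Function.Injective ι) (hd : ∀ i j, ι i ≠ ι' j) {g : (I → II) → ℝ}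
    (hg : Measurable g) (h0 : ∫ x, g x ∂(Measure.pi fun _ => π) = 0) :
    ∫ ω, g (fun i => ω (ι i)) * g (fun i => ω (ι' i)) ∂(Measure.pi fun _ : V => π) = 0 := by
  have h1 := ((p_indep (V := V) π).indepFun_finset (Finset.univ.image ι) (Finset.univ.image ι')
    (Finset.disjoint_left.2 fun v hv hv' => by
      obtain ⟨i, -, rfl⟩ := Finset.mem_image.1 hv
      obtain ⟨j, -, e⟩ := Finset.mem_image.1 hv'
      exact hd i j e.symm) fun v => measurable_pi_apply v).comp
    (φ := fun x => g fun i => x ⟨ι i, Finset.mem_image_of_mem _ (Finset.mem_univ _)⟩)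
    (ψ := fun x => g fun i => x ⟨ι' i, Finset.mem_image_of_mem _ (Finset.mem_univ _)⟩)
    (hg.comp (measurable_pi_lambda _ fun _ => measurable_pi_apply _))
    (hg.comp (measurable_pi_lambda _ fun _ => measurable_pi_apply _))
  have hm : ∀ κ : I → V, Measurable fun (ω : V → II) i => ω (κ i) := fun κ =>
    measurable_pi_lambda _ fun _ => measurable_pi_apply _
  have h2 := h1.integral_fun_mul_eq_mul_integral (hg.comp (hm ι)).aestronglyMeasurable
    (hg.comp (hm ι')).aestronglyMeasurable
  have h3 : ∫ ω, g (fun i => ω (ι i)) ∂(Measure.pi fun _ : V => π) = 0 := by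
    rw [← h0, ← p_law_comp π hι, integral_map (hm ι).aemeasurable hg.aestronglyMeasurable]
  exact h2.trans (mul_eq_zero_of_left h3 _)

end indep

theorem p_frac_exists {ι κ : Type} [Fintype ι] [Fintype κ] {p : κ → ι → Prop} {c : ℝ}
    (h : ∀ k, frac (p k) ≤ c) : frac (fun i => ∃ k, p k i) ≤ Fintype.card κ * c := by
  classical
  have h1 : frac (fun i => ∃ k, p k i) ≤ ∑ k, frac (p k) := by
    unfold frac
    rw [← p_avg_sum]
    refine p_avg_mono fun i => ?_
    split_ifs with hi
    · obtain ⟨k, hk⟩ := hi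
      refine le_trans ?_ (Finset.single_le_sum (fun k _ => by split_ifs <;> norm_num) (Finset.mem_univ k))
      rw [if_pos hk]
    · exact Finset.sum_nonneg fun k _ => by split_ifs <;> norm_num
  refine h1.trans ((Finset.sum_le_sum fun k _ => h k).trans ?_)
  simp

variable {V : Type} [Fintype V] [DecidableEq V] {q : ℕ}

/-- the half-edges through which the vertices of the depth-`R` neighbourhood are reached -/
def p_arr' (σ : Pairing V q) (R : ℕ) (h : HE V q) : p_I q R → HE V q
  | none => h
  | some w => p_arr σ h w.1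

theorem p_res_sview (c : Cfg V q) (R : ℕ) (h : HE V q) :
    p_res R (sview c h) = fun i => c.2 (p_arr' c.1 R h i).1 := by
  funext i
  cases i <;> rfl

theorem p_arr'_inj {σ : Pairing V q} {R : ℕ} {h : HE V q} (ht : TreeLike σ R h) :
    Function.Injective fun i => (p_arr' σ R h i).1 := by
  rw [p_treeLike_iff] at ht
  rintro (_ | w) (_ | w') e
  · rfl
  · exact absurd e.symm (ht.1 _ w'.2)
  · exact absurd e (ht.1 _ w.2)
  · exact congrArg some (Subtype.ext (ht.2 _ w.2 _ w'.2 e))

theorem p_meet (σ : Pairing V q) (R : ℕ) (h : HE V q) :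
    frac (fun h' => ∃ x : p_I q R × p_I q R, (p_arr' σ R h x.1).1 = (p_arr' σ R h' x.2).1) ≤
      Fintype.card (p_I q R × p_I q R) * ((q + 1) / Fintype.card V) := by
  classical
  refine p_frac_exists fun x => (p_frac_le_card (T := Finset.univ.filter fun h' =>
    (p_arr' σ R h x.1).1 = (p_arr' σ R h' x.2).1) (fun _ hb => Finset.mem_filter.2 ⟨Finset.mem_univ _, hb⟩)
    ?_).trans (p_div_HE (by positivity))
  have h1 := Finset.card_le_card_of_injOn (s := Finset.univ.filter fun h' =>
      (p_arr' σ R h x.1).1 = (p_arr' σ R h' x.2).1)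
    (t := ({(p_arr' σ R h x.1).1} : Finset V) ×ˢ (Finset.univ : Finset (Fin (q + 1))))
    (fun h' => p_arr' σ R h' x.2) (fun h' hh => Finset.mem_coe.2 (Finset.mem_product.2
      ⟨Finset.mem_singleton.2 (Finset.mem_filter.1 hh).2.symm, Finset.mem_univ _⟩)) fun a _ b _ e => by
      obtain ⟨i, _ | w⟩ := x
      · exact e
      · exact p_arr_injective σ w.1 e
  rw [p_card_at, Finset.card_singleton, one_mul] at h1
  exact_mod_cast h1

theorem p_second (π : Measure II) [IsProbabilityMeasure π] (σ : Pairing V q) {R : ℕ} {g : (p_I q R → II) → ℝ}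
    (hg : Measurable g) (h0 : ∫ x, g x ∂(Measure.pi fun _ => π) = 0) {B : ℝ} (hB : ∀ x, |g x| ≤ B) :
    Integrable (fun ω : V → II => (avg fun h : HE V q => g fun i => ω (p_arr' σ R h i).1) ^ 2)
      (Measure.pi fun _ => π) ∧
    ∫ ω, (avg fun h : HE V q => g fun i => ω (p_arr' σ R h i).1) ^ 2 ∂(Measure.pi fun _ : V => π) ≤
      B ^ 2 * (frac (fun h => ¬ TreeLike σ R h) +
        Fintype.card (p_I q R × p_I q R) * ((q + 1) / Fintype.card V)) := by
  classical
  have e : ∀ f : HE V q → ℝ, avg f ^ 2 = avg fun p : HE V q × HE V q => f p.1 * f p.2 := fun f => by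
    rw [p_avg_prod fun p : HE V q × HE V q => f p.1 * f p.2]
    simp only [p_avg_mul, mul_comm _ (avg fun b => f b), sq]
  have hm : ∀ h : HE V q, Measurable fun ω : V → II => g fun i => ω (p_arr' σ R h i).1 := fun h =>
    hg.comp (measurable_pi_lambda _ fun _ => measurable_pi_apply _)
  have hb : ∀ x y, ‖g x * g y‖ ≤ B ^ 2 := fun x y => by
    rw [norm_mul, sq]
    exact mul_le_mul (hB x) (hB y) (norm_nonneg _) ((abs_nonneg _).trans (hB x))
  have hi : ∀ p : HE V q × HE V q, Integrable (fun ω : V → II => (g fun i => ω (p_arr' σ R p.1 i).1) *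
      g fun i => ω (p_arr' σ R p.2 i).1) (Measure.pi fun _ => π) := fun p =>
    Integrable.of_bound ((hm _).mul (hm _)).aestronglyMeasurable (B ^ 2) (Eventually.of_forall fun _ => hb _ _)
  simp only [e]
  refine ⟨(integrable_finsetSum _ fun p _ => hi p).div_const _, ?_⟩
  have h1 : ∀ p : HE V q × HE V q, ∫ ω, (g fun i => ω (p_arr' σ R p.1 i).1) *
      (g fun i => ω (p_arr' σ R p.2 i).1) ∂(Measure.pi fun _ : V => π) ≤ B ^ 2 * if ¬ TreeLike σ R p.1 ∨
        ∃ x : p_I q R × p_I q R, (p_arr' σ R p.1 x.1).1 = (p_arr' σ R p.2 x.2).1 then 1 else 0 := fun p => by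
    split_ifs with hp
    · have := norm_integral_le_of_norm_le_const (μ := Measure.pi fun _ : V => π)
        (f := fun ω : V → II => (g fun i => ω (p_arr' σ R p.1 i).1) * g fun i => ω (p_arr' σ R p.2 i).1)
        (Eventually.of_forall fun _ => hb _ _)
      rw [probReal_univ] at this
      exact (le_abs_self _).trans this
    · rw [not_or, not_not, not_exists] at hp
      rw [p_cov π (p_arr'_inj hp.1) (fun i j => hp.2 (i, j)) hg h0, mul_zero]
  have h2 := p_avg_mono h1
  rw [p_avg_mul] at h2
  refine le_trans (le_of_eq ?_) (h2.trans (mul_le_mul_of_nonneg_left ?_ (sq_nonneg B)))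
  · simp only [avg]
    rw [integral_div, integral_finsetSum _ fun p _ => hi p]
  · refine le_trans (le_of_eq (congrArg avg (funext fun _ => by congr))) ((p_frac_or
      (fun p : HE V q × HE V q => ¬ TreeLike σ R p.1) fun p => ∃ x : p_I q R × p_I q R,
        (p_arr' σ R p.1 x.1).1 = (p_arr' σ R p.2 x.2).1).trans (add_le_add (p_frac_fst fun h => ¬ TreeLike σ R h) ?_))
    rw [p_frac_prod]
    exact p_avg_le (by positivity) fun h => p_meet σ R h

theorem p_markov (π : Measure II) [IsProbabilityMeasure π] {R : ℕ} {g : (p_I q R → II) → ℝ}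
    (hg : Measurable g) (h0 : ∫ x, g x ∂(Measure.pi fun _ => π) = 0) {B : ℝ} (hB : ∀ x, |g x| ≤ B) {δ : ℝ}
    (hδ : 0 < δ) : cfgLaw V q π {c | δ ^ 2 ≤ (avg fun h : HE V q => g fun i => c.2 (p_arr' c.1 R h i).1) ^ 2} ≤
      ENNReal.ofReal (avg fun σ : Pairing V q => B ^ 2 / δ ^ 2 * (frac (fun h => ¬ TreeLike σ R h) +
        Fintype.card (p_I q R × p_I q R) * ((q + 1) / Fintype.card V))) := by
  have hm : Measurable fun c : Cfg V q => (avg fun h : HE V q => g fun i => c.2 (p_arr' c.1 R h i).1) ^ 2 :=
    measurable_from_prod_countable_right fun σ => by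
      have hm : ∀ h : HE V q, Measurable fun ω : V → II => g fun i => ω (p_arr' σ R h i).1 := fun h =>
        hg.comp (measurable_pi_lambda _ fun _ => measurable_pi_apply _)
      exact ((Finset.measurable_sum _ fun h _ => hm h).div_const _).pow_const 2
  rw [cfgLaw, Measure.prod_apply (measurableSet_le measurable_const hm), ← p_integral_uniform,
    ofReal_integral_eq_lintegral_ofReal Integrable.of_finite (Eventually.of_forall fun σ =>
      mul_nonneg (by positivity) (add_nonneg (p_frac_nonneg _) (by positivity)))]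
  refine lintegral_mono fun σ => ?_
  obtain ⟨h1, h2⟩ := p_second π σ hg h0 hB
  have h3 := mul_meas_ge_le_integral_of_nonneg (Eventually.of_forall fun ω => sq_nonneg _) h1 (δ ^ 2)
  refine (ofReal_measureReal (measure_ne_top _ _)).symm.trans_le (ENNReal.ofReal_le_ofReal ?_)
  rw [div_mul_eq_mul_div, le_div_iff₀ (by positivity), mul_comm]
  exact h3.trans h2

theorem stP4 : StP4 := by
  intro q π _ φ ε hε
  have hδ : 0 < ε / 3 := by positivity
  obtain ⟨R, hR⟩ := p_approx φ hδ
  obtain ⟨C, hC0, hC⟩ := p_treeLike_avg q R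
  have : IsProbabilityMeasure (envLaw q π) := by unfold envLaw; infer_instance
  have : IsProbabilityMeasure (starLaw q π) := by unfold starLaw; infer_instance
  have hφ : Measurable fun x => φ (p_ext' R x) := φ.continuous.measurable.comp (p_meas_ext R)
  set m := ∫ x, φ (p_ext' R x) ∂(Measure.pi fun _ => π) with hm
  have hi : Integrable (fun x => φ (p_ext' R x)) (Measure.pi fun _ => π) :=
    Integrable.of_bound hφ.aestronglyMeasurable ‖φ‖ (Eventually.of_forall fun x => φ.norm_coe_le_norm _)
  have h0 : ∫ x, (φ (p_ext' R x) - m) ∂(Measure.pi fun _ => π) = 0 := by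
    rw [integral_sub hi (integrable_const _)]; simp [hm]
  have hB : ∀ x, |φ (p_ext' R x) - m| ≤ ‖φ‖ + |m| := fun x =>
    (abs_sub _ _).trans (add_le_add (φ.norm_coe_le_norm _) le_rfl)
  have hm2 : |∫ e, φ e ∂starLaw q π - m| ≤ ε / 3 := by
    rw [hm, ← p_law_res q R π, integral_map (p_meas_res R).aemeasurable hφ.aestronglyMeasurable,
      ← integral_sub (Integrable.of_bound φ.continuous.measurable.aestronglyMeasurable ‖φ‖
        (Eventually.of_forall fun x => φ.norm_coe_le_norm _)) (Integrable.of_bound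
        (f := fun e => φ (p_ext' R (p_res R e))) (hφ.comp (p_meas_res R)).aestronglyMeasurable ‖φ‖ (Eventually.of_forall fun x => φ.norm_coe_le_norm _))]
    have := norm_integral_le_of_norm_le_const (μ := starLaw q π)
      (f := fun e => φ e - φ (p_ext' R (p_res R e))) (Eventually.of_forall hR)
    rwa [probReal_univ, mul_one] at this
  set D : ℝ := (‖φ‖ + |m|) ^ 2 / (ε / 3) ^ 2 with hD
  set J : ℝ := (Fintype.card (p_I q R × p_I q R) : ℝ) with hJ
  have hJ0 : 0 ≤ J := Nat.cast_nonneg _
  have lim : Tendsto (fun n : ℕ => ENNReal.ofReal (D * (C + J * (q + 1)) / n)) atTop (𝓝 0) := by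
    rw [← ENNReal.ofReal_zero]
    exact ENNReal.tendsto_ofReal (tendsto_const_div_atTop_nhds_zero_nat _)
  refine tendsto_of_tendsto_of_tendsto_of_le_of_le' tendsto_const_nhds lim
    (Eventually.of_forall fun _ => zero_le) ?_
  filter_upwards [eventually_gt_atTop 0] with n hn
  have : Nonempty (Fin n) := ⟨⟨0, hn⟩⟩
  refine le_trans (measure_mono fun c hc => ?_) ((p_markov π (hφ.sub_const m) h0 hB hδ).trans
    (ENNReal.ofReal_le_ofReal ?_))
  · have h1 : ε < |(avg fun h : HE (Fin n) q => φ (sview c h)) - ∫ e, φ e ∂starLaw q π| := hc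
    have h2 : ∀ h : HE (Fin n) q, |φ (sview c h) - φ (p_ext' R fun i => c.2 (p_arr' c.1 R h i).1)| ≤ ε / 3 :=
      fun h => by rw [← p_res_sview]; exact hR _
    have h3 := p_avg_mono (f := fun h : HE (Fin n) q => φ (sview c h))
      (g := fun h => (φ (p_ext' R fun i => c.2 (p_arr' c.1 R h i).1) - m) + (m + ε / 3))
      fun h => by linarith [(abs_le.1 (h2 h)).2]
    have h4 := p_avg_mono (g := fun h : HE (Fin n) q => φ (sview c h))
      (f := fun h => (φ (p_ext' R fun i => c.2 (p_arr' c.1 R h i).1) - m) + (m - ε / 3))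
      fun h => by linarith [(abs_le.1 (h2 h)).1]
    rw [p_avg_add, p_avg_const] at h3 h4
    show (ε / 3) ^ 2 ≤ _
    rw [← sq_abs (avg _)]
    refine pow_le_pow_left₀ hδ.le ?_ 2
    have h5 := abs_le.1 hm2
    rcases lt_abs.1 h1 with h6 | h6
    · exact le_trans (by linarith) (le_abs_self _)
    · exact le_trans (by linarith) (neg_le_abs _)
  · rw [p_avg_mul, p_avg_add, mul_div_assoc D, add_div C, mul_div_assoc J]
    refine mul_le_mul_of_nonneg_left (add_le_add ?_ (p_avg_le (by positivity) fun _ => ?_)) (by positivity)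
    · simpa using hC (Fin n)
    · rw [Fintype.card_fin]

end Crest.Agent.R166
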