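import Crest.Agent.R166.P.Basic

/-!
# R166/P/Pairs: conditional resampling lemma; probability of containing prescribed pairs
-/

set_option autoImplicit false
set_option linter.unusedSectionVars false

noncomputable section

namespace Crest.Agent.R166

variable {V : Type} [Fintype V] [DecidableEq V] {q : ℕ}

/-- Conditional resampling lemma: as `p_resample`, inside an event `E` determined by the stopping set. -/
theorem p_resample_cond (E : Pairing V q → Prop) (K T : Pairing V q → Finset (HE V q))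
    (a : Pairing V q → HE V q) (m t : ℕ)
    (hK : ∀ σ, E σ → (K σ).card ≤ m) (hT : ∀ σ, E σ → (T σ).card ≤ t)
    (hinv : ∀ σ, E σ → ∀ x ∈ K σ, σ x ∈ K σ)
    (hloc : ∀ σ σ' : Pairing V q, E σ → (∀ x ∈ K σ, σ' x = σ x) → E σ' ∧ a σ' = a σ ∧ T σ' = T σ) :
    frac (fun σ => E σ ∧ a σ ∉ K σ ∧ σ (a σ) ∈ T σ) * (Fintype.card (HE V q) - (m + 1)) ≤ t * frac E := by
  classical
  set B := Finset.univ.filter fun σ => E σ ∧ a σ ∉ K σ ∧ σ (a σ) ∈ T σ with hB
  let S₁ : Finset (Σ _ : Pairing V q, HE V q) := B.sigma fun σ => (insert (a σ) (K σ))ᶜ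
  let S₂ : Finset (Σ _ : Pairing V q, HE V q) := (Finset.univ.filter E).sigma T
  have key : ∀ p ∈ S₁, E (switch p.1 (p.1 (a p.1)) p.2) ∧ a (switch p.1 (p.1 (a p.1)) p.2) = a p.1 ∧
      T (switch p.1 (p.1 (a p.1)) p.2) = T p.1 ∧ switch p.1 (p.1 (a p.1)) p.2 (a p.1) = p.2 := by
    rintro ⟨σ, b⟩ hp
    simp only [S₁, hB, Finset.mem_sigma, Finset.mem_filter, Finset.mem_univ, true_and, Finset.mem_compl,
      Finset.mem_insert, not_or] at hp
    obtain ⟨⟨h0, h1, -⟩, h2, h3⟩ := hp
    have := hloc σ (switch σ (σ (a σ)) b) h0 fun x hx => p_switch_of_ne σ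
      (fun e => h1 (by simpa [e] using hinv σ h0 x hx)) (fun e => h3 (e ▸ hx))
      (fun e => h1 (by simpa [e] using hx)) fun e => h3 (by simpa [e] using hinv σ h0 x hx)
    refine ⟨this.1, this.2.1, this.2.2, ?_⟩
    rw [p_switch_apply, Equiv.swap_apply_of_ne_of_ne (p_ne σ _).symm (Ne.symm h2), Equiv.swap_apply_left]
  have h12 : S₁.card ≤ S₂.card := by
    refine Finset.card_le_card_of_injOn (fun p => ⟨switch p.1 (p.1 (a p.1)) p.2, p.1 (a p.1)⟩)
      (fun p hp => ?_) fun p hp p' hp' e => ?_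
    · have h1 := (key p hp).2.2.1
      have h2 := (Finset.mem_filter.1 (Finset.mem_sigma.1 hp).1).2.2.2
      exact Finset.mem_coe.2 (Finset.mem_sigma.2 ⟨Finset.mem_filter.2 ⟨Finset.mem_univ _, (key p hp).1⟩,
        by simpa only [h1] using h2⟩)
    · obtain ⟨-, a1, -, a2⟩ := key p hp
      obtain ⟨-, b1, -, b2⟩ := key p' hp'
      have e1 : switch p.1 (p.1 (a p.1)) p.2 = switch p'.1 (p'.1 (a p'.1)) p'.2 := congrArg Sigma.fst e
      have e2 : p.1 (a p.1) = p'.1 (a p'.1) := congrArg (fun x : (Σ _ : Pairing V q, HE V q) => x.2) e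
      have e3 : a p.1 = a p'.1 := by rw [← a1, e1, b1]
      have e4 : p.2 = p'.2 := by rw [← a2, e1, e3, b2]
      have e5 : p.1 = p'.1 := by
        rw [← p_switch_switch p.1 (p.1 (a p.1)) p.2, e1, e2, e4, p_switch_switch]
      exact Sigma.ext e5 (heq_of_eq e4)
  have h1 : B.card * Fintype.card (HE V q) ≤ S₁.card + B.card * (m + 1) := by
    rw [Finset.card_sigma, ← smul_eq_mul, ← smul_eq_mul, ← Finset.sum_const, ← Finset.sum_const,
      ← Finset.sum_add_distrib]
    refine Finset.sum_le_sum fun σ hσ => ?_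
    have := Finset.card_add_card_compl (insert (a σ) (K σ))
    have := Finset.card_insert_le (a σ) (K σ)
    have := hK σ (Finset.mem_filter.1 hσ).2.1
    omega
  have h2 : S₂.card ≤ (Finset.univ.filter E).card * t := by
    rw [Finset.card_sigma, ← smul_eq_mul, ← Finset.sum_const]
    exact Finset.sum_le_sum fun σ hσ => hT σ (Finset.mem_filter.1 hσ).2
  have h4 : (B.card : ℝ) * Fintype.card (HE V q) ≤ (Finset.univ.filter E).card * t + B.card * (m + 1) := by
    exact_mod_cast h1.trans (Nat.add_le_add_right (h12.trans h2) _)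
  rw [p_frac_eq, p_frac_eq, ← hB, div_mul_eq_mul_div, ← mul_div_assoc]
  exact div_le_div_of_nonneg_right (by linarith) (Nat.cast_nonneg _)

/-- the probability that a pairing contains `k` prescribed disjoint pairs is at most `(2/(nd))^k` -/
theorem p_pairs {ι : Type} (s : Finset ι) (x y : ι → HE V q) (hx : Set.InjOn x s)
    (hxy : ∀ i ∈ s, ∀ j ∈ s, i ≠ j → x i ≠ y j) (hk : 4 * s.card ≤ Fintype.card (HE V q)) :
    frac (fun σ : Pairing V q => ∀ i ∈ s, σ (x i) = y i) ≤ (2 / Fintype.card (HE V q)) ^ s.card := by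
  classical
  induction s using Finset.induction_on with
  | empty => simpa using p_frac_le_one _
  | insert i s hi ih =>
    rw [Finset.card_insert_of_notMem hi] at hk ⊢
    have ih' := ih (hx.mono (by simp)) (fun a ha b hb => hxy a (Finset.mem_insert_of_mem ha) b
      (Finset.mem_insert_of_mem hb)) (by omega)
    have h1 := p_resample_cond (fun σ : Pairing V q => ∀ i ∈ s, σ (x i) = y i)
      (fun _ => s.image x ∪ s.image y) (fun _ => {y i}) (fun _ => x i) (2 * s.card) 1
      (fun _ _ => (Finset.card_union_le _ _).trans (by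
        have := Finset.card_image_le (s := s) (f := x)
        have := Finset.card_image_le (s := s) (f := y)
        omega)) (fun _ _ => by simp) (fun σ hσ z hz => by
        rcases Finset.mem_union.1 hz with hz | hz <;> obtain ⟨j, hj, rfl⟩ := Finset.mem_image.1 hz
        · exact Finset.mem_union_right _ (Finset.mem_image.2 ⟨j, hj, (hσ j hj).symm⟩)
        · exact Finset.mem_union_left _ (Finset.mem_image.2 ⟨j, hj, (p_eq_iff σ).1 (hσ j hj)⟩))
      fun σ σ' hσ h => ⟨fun j hj => (h _ (Finset.mem_union_left _ (Finset.mem_image_of_mem _ hj))).trans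
        (hσ j hj), rfl, rfl⟩
    have h2 : frac (fun σ : Pairing V q => ∀ j ∈ insert i s, σ (x j) = y j) ≤ frac fun σ : Pairing V q =>
        (∀ i ∈ s, σ (x i) = y i) ∧ x i ∉ s.image x ∪ s.image y ∧ σ (x i) ∈ ({y i} : Finset _) :=
      p_frac_mono fun σ hσ => ⟨fun j hj => hσ j (Finset.mem_insert_of_mem hj), fun hz => by
        rcases Finset.mem_union.1 hz with hz | hz <;> obtain ⟨j, hj, e⟩ := Finset.mem_image.1 hz
        · exact hi (hx (by simp [hj]) (by simp) e ▸ hj)
        · exact hxy i (Finset.mem_insert_self _ _) j (Finset.mem_insert_of_mem hj)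
            (fun e' => hi (e' ▸ hj)) e.symm, Finset.mem_singleton.2 (hσ i (Finset.mem_insert_self _ _))⟩
    have hk' : (4 * (s.card + 1) : ℝ) ≤ Fintype.card (HE V q) := by exact_mod_cast hk
    have hs : (0 : ℝ) ≤ s.card := Nat.cast_nonneg _
    have hN : (0 : ℝ) < Fintype.card (HE V q) := by linarith
    refine h2.trans ?_
    rw [pow_succ, ← mul_div_assoc, le_div_iff₀ hN]
    push_cast at h1
    have h3 := p_frac_nonneg fun σ : Pairing V q =>
      (∀ i ∈ s, σ (x i) = y i) ∧ x i ∉ s.image x ∪ s.image y ∧ σ (x i) ∈ ({y i} : Finset _)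
    nlinarith

end Crest.Agent.R166
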