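import Crest.Agent.R166.P.Switch

/-!
# R166/P/Simple: simple pairings have probability bounded below (`StP1`)
-/

set_option autoImplicit false
set_option linter.unusedSectionVars false

open MeasureTheory ProbabilityTheory Filter Topology

noncomputable section

namespace Crest.Agent.R166

variable {V : Type} [Fintype V] [DecidableEq V] {q : ℕ}

theorem p_nonempty (h : Even (Fintype.card V * (q + 1))) : Nonempty (Pairing V q) := by
  obtain ⟨m, hm⟩ := h
  have e : HE V q ≃ Fin m × Bool := Fintype.equivOfCardEq (by simp [HE, hm, mul_two])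
  let f : Fin m × Bool → Fin m × Bool := fun x => (x.1, !x.2)
  have hf : Function.Involutive f := fun x => by simp [f]
  refine ⟨⟨(e.trans hf.toPerm).trans e.symm, fun h => ⟨by simp [f], fun h' => ?_⟩⟩⟩
  have h1 : f (e h) = e h := by simpa using congrArg e h'
  have h2 := congrArg Prod.snd h1
  simp [f] at h2

open Classical in
/-- the number of bad half-edges -/
def p_D (σ : Pairing V q) : ℕ := (Finset.univ.filter (p_Bad σ)).card

theorem p_bad_tree {σ : Pairing V q} {x : HE V q} (h : p_Bad σ x) : ¬ TreeLike σ 0 x := by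
  intro ht
  rcases h with h | ⟨x', h1, h2, h3⟩
  · exact ht.1 0 [] le_rfl (by rwa [p_rot_zero])
  · obtain ⟨k, rfl⟩ := p_exists_rot h2
    have := (ht.2 k 0 [] [] le_rfl le_rfl (by rwa [p_rot_zero])).1
    exact h1 (by rw [this, p_rot_zero])

theorem p_frac_true {ι : Type} [Fintype ι] [Nonempty ι] {p : ι → Prop} (h : ∀ i, p i) : frac p = 1 := by
  have : ∀ i, p i ↔ True := fun i => iff_true_intro (h i)
  simp only [frac, this, if_true, p_avg_const]

theorem p_frac_def {ι : Type} [Fintype ι] (p : ι → Prop) [DecidablePred p] :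
    frac p = avg fun i => if p i then (1 : ℝ) else 0 :=
  congrArg avg (funext fun _ => by congr)

theorem p_D_tight (q : ℕ) : ∃ K : ℕ, ∀ (V : Type) [Fintype V] [DecidableEq V],
    frac (fun σ : Pairing V q => K < p_D σ) ≤ 1 / 2 := by
  classical
  obtain ⟨C, hC0, hC⟩ := p_treeLike_avg q 0
  obtain ⟨K, hK⟩ := exists_nat_gt (2 * ((q + 1) * C))
  have hK0 : (0 : ℝ) < K := lt_of_le_of_lt (by positivity) hK
  refine ⟨K, fun V _ _ => ?_⟩
  have h1 : ∀ σ : Pairing V q, (if K < p_D σ then (1 : ℝ) else 0) ≤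
      (Fintype.card (HE V q) / K) * frac fun h : HE V q => ¬ TreeLike σ 0 h := fun σ => by
    split_ifs with h
    · have h2 : frac (p_Bad σ) ≤ frac fun h : HE V q => ¬ TreeLike σ 0 h := p_frac_mono fun x => p_bad_tree
      have h3 : p_D σ ≤ Fintype.card (HE V q) := Finset.card_le_univ _
      have h4 : (0 : ℝ) < Fintype.card (HE V q) := by exact_mod_cast (Nat.zero_lt_of_lt h).trans_le h3
      refine le_trans ?_ (mul_le_mul_of_nonneg_left h2 (by positivity))
      rw [p_frac_eq, div_mul_div_comm, le_div_iff₀ (by positivity), one_mul, mul_comm]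
      exact mul_le_mul_of_nonneg_left (by exact_mod_cast h.le) h4.le
    · exact mul_nonneg (by positivity) (p_frac_nonneg _)
  refine le_trans (p_frac_def _).le ((p_avg_mono h1).trans ?_)
  rw [p_avg_mul]
  refine (mul_le_mul_of_nonneg_left (hC V) (by positivity)).trans ?_
  rw [p_card_HE]
  rcases (Nat.cast_nonneg (α := ℝ) (Fintype.card V)).eq_or_lt with h | h
  · simp [← h]
  · rw [div_mul_div_comm, div_le_iff₀ (by positivity)]
    nlinarith

theorem p1_switch {σ : Pairing V q} {a b : HE V q} {k : ℕ} (hD : p_D σ = k + 1) (ha : p_Bad σ a)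
    (hf : p_Far σ a b) (hb : ¬ p_Bad σ b) : p_D (switch σ a b) ≤ k ∧ ¬ p_Far (switch σ a b) a b := by
  classical
  constructor
  · have h1 := Finset.card_erase_of_mem (s := Finset.univ.filter (p_Bad σ)) (a := a)
      (Finset.mem_filter.2 ⟨Finset.mem_univ _, ha⟩)
    have h2 : p_D (switch σ a b) ≤ ((Finset.univ.filter (p_Bad σ)).erase a).card :=
      Finset.card_le_card fun x hx => by
        have := p_bad_switch hf (fun e => hb (Or.inl e)) (Finset.mem_filter.1 hx).2
        exact Finset.mem_erase.2 ⟨this.1, Finset.mem_filter.2 ⟨Finset.mem_univ _, this.2⟩⟩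
    unfold p_D at hD
    omega
  · intro hf'
    refine hf'.2.1 ?_
    rw [p_switch_right σ fun e => hf.1.2 (e ▸ p_self_mem_N σ _)]
    have hl : (σ a).1 = a.1 → (σ a).1 ∈ p_N (switch σ a b) a.1 := fun e => e ▸ p_self_mem_N _ _
    rcases ha with h | ⟨x, h1, h2, h3⟩
    · exact hl h
    · by_cases h4 : x = σ a
      · exact hl (h4 ▸ h2)
      · rw [← h3, ← h2, ← p_switch_of_ne σ (b := b) h1
          (fun e => hf.1.1 (by rw [← e, h2]; exact p_self_mem_N _ _)) h4
          fun e => hf.2.1 (by rw [← e, h2]; exact p_self_mem_N _ _)]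
        exact p_mem_N _ x

theorem p1_upper (σ : Pairing V q) (k : ℕ) : (frac fun p : HE V q × HE V q => p_D σ ≤ k ∧ ¬ p_Far σ p.1 p.2) ≤
    2 * (p_c1 q : ℝ) / Fintype.card V * if p_D σ ≤ k then 1 else 0 := by
  split_ifs with h
  · rw [mul_one, p_frac_prod]
    refine p_avg_le (by positivity) fun a => ?_
    obtain ⟨Z, hZ, hZ'⟩ := p_not_far σ a
    exact le_trans (p_frac_mono fun b hb => hZ' b hb.2) (p_frac_hit σ hZ)
  · rw [mul_zero, p_frac_eq_zero fun p hp => h hp.1]

theorem p1_lower (σ : Pairing V q) {k : ℕ} (hn : 2 * (2 * (p_c1 q : ℝ) + (k + 1 : ℕ)) ≤ Fintype.card V) :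
    (1 / (2 * Fintype.card (HE V q)) * if p_D σ = k + 1 then 1 else 0) ≤
      frac fun p : HE V q × HE V q => p_D σ = k + 1 ∧ p_Bad σ p.1 ∧ p_Far σ p.1 p.2 ∧ ¬ p_Bad σ p.2 := by
  classical
  split_ifs with h
  · obtain ⟨a, ha⟩ := Finset.card_pos.1 (show 0 < p_D σ by omega)
    have ha' := (Finset.mem_filter.1 ha).2
    have : Nonempty (HE V q) := ⟨a⟩
    obtain ⟨Z, hZ, hZ'⟩ := p_not_far σ a
    have h1 : frac (fun b => ¬ p_Far σ a b) ≤ 2 * (p_c1 q : ℝ) / Fintype.card V :=
      le_trans (p_frac_mono hZ') (p_frac_hit σ hZ)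
    have h2 : frac (p_Bad σ) ≤ ((k + 1 : ℕ) : ℝ) / Fintype.card V :=
      (p_frac_le_card (T := Finset.univ.filter (p_Bad σ)) (fun _ hb => Finset.mem_filter.2 ⟨Finset.mem_univ _, hb⟩)
        (by rw [← h]; rfl)).trans (p_div_HE (by positivity))
    have h3 : (1 : ℝ) ≤ frac (fun b => p_Far σ a b ∧ ¬ p_Bad σ b) + (frac (fun b => ¬ p_Far σ a b) + frac (p_Bad σ)) := by
      rw [← p_frac_true (p := fun _ : HE V q => True) fun _ => trivial]
      refine (p_frac_or_le (p₂ := fun b => ¬ p_Far σ a b ∨ p_Bad σ b) fun b _ => ?_).trans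
        (add_le_add le_rfl (p_frac_or _ _))
      by_cases f1 : p_Far σ a b
      · by_cases f2 : p_Bad σ b
        · exact Or.inr (Or.inr f2)
        · exact Or.inl ⟨f1, f2⟩
      · exact Or.inr (Or.inl f1)
    have h4 : (0 : ℝ) < Fintype.card V := lt_of_lt_of_le (by positivity) hn
    have h5 : 2 * (p_c1 q : ℝ) / Fintype.card V + ((k + 1 : ℕ) : ℝ) / Fintype.card V ≤ 1 / 2 := by
      rw [← add_div, div_le_iff₀ h4]; linarith
    rw [mul_one, p_frac_prod, avg, ← div_div]
    refine div_le_div_of_nonneg_right (le_trans ?_ (Finset.single_le_sum (fun _ _ => p_frac_nonneg _)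
      (Finset.mem_univ a))) (Nat.cast_nonneg _)
    refine le_trans (by linarith) (p_frac_mono (p := fun b => p_Far σ a b ∧ ¬ p_Bad σ b) fun b hb => ?_)
    exact ⟨h, ha', hb⟩
  · rw [mul_zero]; exact p_frac_nonneg _

theorem p1_step {k : ℕ} (hn : 2 * (2 * (p_c1 q : ℝ) + (k + 1 : ℕ)) ≤ Fintype.card V) :
    frac (fun σ : Pairing V q => p_D σ = k + 1) ≤
      4 * (p_c1 q : ℝ) * (q + 1) * frac fun σ : Pairing V q => p_D σ ≤ k := by
  have h1 : ∀ p : HE V q × HE V q, (frac fun σ : Pairing V q =>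
      p_D σ = k + 1 ∧ p_Bad σ p.1 ∧ p_Far σ p.1 p.2 ∧ ¬ p_Bad σ p.2) ≤
      frac fun σ : Pairing V q => p_D σ ≤ k ∧ ¬ p_Far σ p.1 p.2 := fun p =>
    le_trans (p_frac_mono fun σ hσ => p1_switch hσ.1 hσ.2.1 hσ.2.2.1 hσ.2.2.2)
      (p_frac_equiv (p_switchE p.1 p.2) fun σ => p_D σ ≤ k ∧ ¬ p_Far σ p.1 p.2).le
  have h2 := p_avg_mono h1
  rw [p_frac_comm, p_frac_comm fun (p : HE V q × HE V q) (σ : Pairing V q) => p_D σ ≤ k ∧ ¬ p_Far σ p.1 p.2] at h2
  have h3 := (p_avg_mono fun σ : Pairing V q => p1_lower σ hn).trans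
    (h2.trans (p_avg_mono fun σ => p1_upper σ k))
  rw [p_avg_mul, p_avg_mul, p_card_HE] at h3
  have e1 : frac (fun σ : Pairing V q => p_D σ = k + 1) =
      avg fun σ : Pairing V q => if p_D σ = k + 1 then (1 : ℝ) else 0 := p_frac_def _
  have e2 : frac (fun σ : Pairing V q => p_D σ ≤ k) =
      avg fun σ : Pairing V q => if p_D σ ≤ k then (1 : ℝ) else 0 := p_frac_def _
  rw [← e1, ← e2] at h3
  have h4 : (0 : ℝ) < Fintype.card V := lt_of_lt_of_le (by positivity) hn
  have h5 := mul_le_mul_of_nonneg_left h3 (show (0 : ℝ) ≤ 2 * (Fintype.card V * (q + 1)) by positivity)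
  refine le_trans (le_of_eq ?_) (h5.trans (le_of_eq ?_)) <;> field_simp
  ring

theorem stP1 : StP1 := by
  intro q
  obtain ⟨K, hK⟩ := p_D_tight q
  set A : ℝ := 1 + 4 * (p_c1 q : ℝ) * (q + 1) with hA
  have hA0 : 0 < A := by positivity
  refine ⟨1 / 2 / A ^ K, by positivity, ?_⟩
  filter_upwards [tendsto_natCast_atTop_atTop.eventually_ge_atTop (2 * (2 * (p_c1 q : ℝ) + K))] with n hn hev
  have : Nonempty (Pairing (Fin n) q) := p_nonempty (by simpa using hev)
  have h1 : ∀ k ≤ K, frac (fun σ : Pairing (Fin n) q => p_D σ ≤ k) ≤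
      A ^ k * frac fun σ : Pairing (Fin n) q => IsSimple σ := by
    intro k hk
    induction k with
    | zero =>
      rw [pow_zero, one_mul]
      refine p_frac_mono fun σ hσ => (p_simple_iff σ).2 fun x hx => ?_
      classical
      have := Finset.card_pos.2 ⟨x, Finset.mem_filter.2 ⟨Finset.mem_univ x, hx⟩⟩
      exact absurd hσ (not_le.2 this)
    | succ k ih =>
      have h2 := p1_step (V := Fin n) (q := q) (k := k) (by
        have : ((k + 1 : ℕ) : ℝ) ≤ K := by exact_mod_cast hk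
        rw [Fintype.card_fin]; linarith)
      have h3 := p_frac_or_le (p := fun σ : Pairing (Fin n) q => p_D σ ≤ k + 1)
        (p₁ := fun σ => p_D σ ≤ k) (p₂ := fun σ => p_D σ = k + 1) fun σ hσ => by omega
      have h4 := mul_le_mul_of_nonneg_left (ih (Nat.le_of_succ_le hk)) hA0.le
      rw [pow_succ', mul_assoc]
      refine le_trans ?_ h4
      rw [hA]
      linarith
  have h2 := p_frac_or_le (p := fun _ : Pairing (Fin n) q => True) (p₁ := fun σ => p_D σ ≤ K)
    (p₂ := fun σ => K < p_D σ) fun σ _ => le_or_gt _ _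
  rw [p_frac_true fun _ => trivial] at h2
  rw [p_uniform_apply]
  refine ENNReal.ofReal_le_ofReal ?_
  rw [div_le_iff₀ (by positivity), mul_comm]
  linarith [h1 K le_rfl, hK (Fin n)]

end Crest.Agent.R166
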