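import Crest.Agent.R166.P.Tree

/-!
# R166/P/Switch: effect of a switch on simplicity and on walks (`StP5`)
-/

set_option autoImplicit false
set_option linter.unusedSectionVars false

noncomputable section

namespace Crest.Agent.R166

variable {V : Type} [Fintype V] [DecidableEq V] {q : ℕ}

/-- closed neighbourhood of a vertex -/
def p_N (σ : Pairing V q) (v : V) : Finset V := insert v (Finset.univ.image fun i => (σ (v, i)).1)

theorem p_self_mem_N (σ : Pairing V q) (v : V) : v ∈ p_N σ v := Finset.mem_insert_self _ _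

theorem p_mem_N (σ : Pairing V q) (x : HE V q) : (σ x).1 ∈ p_N σ x.1 :=
  Finset.mem_insert_of_mem (Finset.mem_image.2 ⟨x.2, Finset.mem_univ _, rfl⟩)

theorem p_N_symm (σ : Pairing V q) {u v : V} (h : u ∈ p_N σ v) : v ∈ p_N σ u := by
  rcases Finset.mem_insert.1 h with rfl | h
  · exact p_self_mem_N σ _
  · obtain ⟨i, -, rfl⟩ := Finset.mem_image.1 h
    simpa only [p_inv] using p_mem_N σ (σ (v, i))

theorem p_card_N (σ : Pairing V q) (v : V) : (p_N σ v).card ≤ q + 2 :=
  (Finset.card_insert_le _ _).trans (Nat.succ_le_succ (Finset.card_image_le.trans (by simp)))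

/-- the edges of `a` and `b` are at distance `≥ 2` -/
def p_Far (σ : Pairing V q) (a b : HE V q) : Prop :=
  (b.1 ∉ p_N σ a.1 ∧ b.1 ∉ p_N σ (σ a).1) ∧ (σ b).1 ∉ p_N σ a.1 ∧ (σ b).1 ∉ p_N σ (σ a).1

/-- a set of bounded size is rarely hit by the edge of a random half-edge -/
theorem p_hit (σ : Pairing V q) {Z : Finset (HE V q)} {t : ℕ} (ht : Z.card ≤ t) :
    (Finset.univ.filter fun b => b ∈ Z ∨ σ b ∈ Z).card ≤ 2 * t := by
  refine (Finset.card_le_card (t := Z ∪ Z.image σ) fun b hb => ?_).trans ((Finset.card_union_le _ _).trans ?_)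
  · rcases (Finset.mem_filter.1 hb).2 with h | h
    · exact Finset.mem_union_left _ h
    · exact Finset.mem_union_right _ (Finset.mem_image.2 ⟨_, h, p_inv σ b⟩)
  · have := Finset.card_image_le (s := Z) (f := σ)
    omega

theorem p_frac_hit (σ : Pairing V q) {Z : Finset (HE V q)} {t : ℕ} (ht : Z.card ≤ t) :
    frac (fun b => b ∈ Z ∨ σ b ∈ Z) ≤ 2 * (t : ℝ) / Fintype.card V :=
  (p_frac_le_card (T := Finset.univ.filter fun b => b ∈ Z ∨ σ b ∈ Z)
    (fun _ hb => Finset.mem_filter.2 ⟨Finset.mem_univ _, hb⟩)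
    (by exact_mod_cast p_hit σ ht)).trans (p_div_HE (by positivity))

/-- bound for the number of half-edges near an edge -/
@[irreducible] def p_c1 (q : ℕ) : ℕ := 2 * (q + 2) * (q + 1)

theorem p_not_far (σ : Pairing V q) (a : HE V q) : ∃ Z : Finset (HE V q), Z.card ≤ p_c1 q ∧
    ∀ b, ¬ p_Far σ a b → b ∈ Z ∨ σ b ∈ Z := by
  refine ⟨(p_N σ a.1 ∪ p_N σ (σ a).1) ×ˢ Finset.univ, ?_, fun b hb => ?_⟩
  · rw [p_card_at, p_c1]
    refine Nat.mul_le_mul_right _ ((Finset.card_union_le _ _).trans ?_)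
    have := p_card_N σ a.1
    have := p_card_N σ (σ a).1
    omega
  · simp only [Finset.mem_product, Finset.mem_union, Finset.mem_univ, and_true]
    unfold p_Far at hb
    tauto

/-- loops and multiple edges -/
def p_Bad (σ : Pairing V q) (x : HE V q) : Prop :=
  (σ x).1 = x.1 ∨ ∃ x', x' ≠ x ∧ x'.1 = x.1 ∧ (σ x').1 = (σ x).1

theorem p_simple_iff (σ : Pairing V q) : IsSimple σ ↔ ∀ x, ¬ p_Bad σ x := by
  constructor
  · rintro ⟨h1, h2⟩ x (h | ⟨x', h3, h4, h5⟩)
    · exact h1 x h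
    · exact h3 (h2 x' x h4 h5)
  · intro h
    exact ⟨fun x e => h x (Or.inl e), fun x x' e e' => by_contra fun hn => h x' (Or.inr ⟨x, hn, e, e'⟩)⟩

theorem p_bad_switch {σ : Pairing V q} {a b : HE V q} (hf : p_Far σ a b) (hb : (σ b).1 ≠ b.1) {x : HE V q}
    (hx : p_Bad (switch σ a b) x) : x ≠ a ∧ p_Bad σ x := by
  obtain ⟨⟨f1, f2⟩, f3, f4⟩ := hf
  have hne : b ≠ σ a := fun e => f2 (e ▸ p_self_mem_N σ _)
  have e1 := p_switch_left σ hne
  have e2 := p_switch_right σ hne
  have e3 : switch σ a b (σ a) = b := by rw [← e2, p_inv]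
  have e4 : switch σ a b (σ b) = a := by rw [← e1, p_inv]
  have g1 : b.1 ≠ a.1 := fun e => f1 (e ▸ p_self_mem_N σ _)
  have g2 : b.1 ≠ (σ a).1 := fun e => f2 (e ▸ p_self_mem_N σ _)
  have g3 : (σ b).1 ≠ a.1 := fun e => f3 (e ▸ p_self_mem_N σ _)
  have g4 : (σ b).1 ≠ (σ a).1 := fun e => f4 (e ▸ p_self_mem_N σ _)
  have hM : ∀ y, (y = a ∨ y = b ∨ y = σ a ∨ y = σ b) ∨ switch σ a b y = σ y ∧ y ≠ a := fun y => by
    by_contra hn
    simp only [not_or, not_and, not_not] at hn
    exact hn.1.1 (hn.2 (p_switch_of_ne σ hn.1.1 hn.1.2.1 hn.1.2.2.1 hn.1.2.2.2))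
  have key : ∀ y, (y = a ∨ y = b ∨ y = σ a ∨ y = σ b) → ¬ p_Bad (switch σ a b) y := by
    intro y hy
    have h1 : (switch σ a b y).1 ∉ p_N σ y.1 := by
      rcases hy with rfl | rfl | rfl | rfl
      · rw [e1]; exact f3
      · rw [e2]; exact fun h => f2 (p_N_symm σ h)
      · rw [e3]; exact f2
      · rw [e4]; exact fun h => f3 (p_N_symm σ h)
    rintro (h | ⟨y', h2, h3, h4⟩)
    · exact h1 (h ▸ p_self_mem_N σ _)
    · rcases hM y' with h5 | h5
      · rcases hy with rfl | rfl | rfl | rfl <;> rcases h5 with rfl | rfl | rfl | rfl <;>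
          first
          | exact h2 rfl
          | exact g1 h3 | exact g1 h3.symm | exact g2 h3 | exact g2 h3.symm | exact g3 h3
          | exact g3 h3.symm | exact g4 h3 | exact g4 h3.symm | exact hb h3 | exact hb h3.symm
          | (rw [e1, e3] at h4; first | exact hb h4 | exact hb h4.symm)
      · rw [h5.1] at h4
        exact h1 (h4 ▸ h3 ▸ p_mem_N σ y')
  rcases hM x with h | h
  · exact absurd hx (key x h)
  · refine ⟨h.2, ?_⟩
    rcases hx with hx | ⟨x', h2, h3, h4⟩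
    · exact Or.inl (h.1 ▸ hx)
    · rcases hM x' with h' | h'
      · exact absurd (Or.inr ⟨x, h2.symm, h3.symm, h4.symm⟩) (key x' h')
      · exact Or.inr ⟨x', h2, h3, by rwa [h.1, h'.1] at h4⟩

theorem p_simple_switch {σ : Pairing V q} {a b : HE V q} (hs : IsSimple σ) (hf : p_Far σ a b) :
    IsSimple (switch σ a b) :=
  (p_simple_iff _).2 fun x hx => (p_simple_iff σ).1 hs x (p_bad_switch hf (hs.1 b) hx).2

theorem p_niff {a b : Prop} (h : ¬ (a ↔ b)) : (b ∧ ¬ a) ∨ (a ∧ ¬ b) := by tauto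

theorem p5_simple1 (σ : Pairing V q) : (frac fun p : HE V q × HE V q =>
    IsSimple σ ∧ ¬ IsSimple (switch σ p.1 p.2)) ≤ 2 * (p_c1 q : ℝ) / Fintype.card V := by
  rw [p_frac_prod]
  refine p_avg_le (by positivity) fun a => ?_
  obtain ⟨Z, hZ, hZ'⟩ := p_not_far σ a
  refine le_trans (p_frac_mono fun b hb => ?_) (p_frac_hit σ hZ)
  exact hZ' b fun hf => hb.2 (p_simple_switch hb.1 hf)

theorem p5_simple2 (a b : HE V q) : (frac fun σ : Pairing V q => IsSimple (switch σ a b) ∧ ¬ IsSimple σ) =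
    frac fun σ : Pairing V q => IsSimple σ ∧ ¬ IsSimple (switch σ a b) := by
  refine Eq.trans (congrArg frac (funext fun σ => ?_))
    (p_frac_equiv (p_switchE a b) fun σ => IsSimple σ ∧ ¬ IsSimple (switch σ a b))
  show _ = (IsSimple (switch σ a b) ∧ ¬ IsSimple (switch (switch σ a b) a b))
  rw [p_switch_switch]

theorem p5_simple : (avg fun σ : Pairing V q => frac fun p : HE V q × HE V q =>
    ¬ (IsSimple (switch σ p.1 p.2) ↔ IsSimple σ)) ≤ 4 * (p_c1 q : ℝ) / Fintype.card V := by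
  have h1 : (avg fun σ : Pairing V q => frac fun p : HE V q × HE V q =>
      IsSimple σ ∧ ¬ IsSimple (switch σ p.1 p.2)) ≤ 2 * (p_c1 q : ℝ) / Fintype.card V :=
    p_avg_le (by positivity) p5_simple1
  have h2 : (avg fun σ : Pairing V q => frac fun p : HE V q × HE V q =>
      IsSimple (switch σ p.1 p.2) ∧ ¬ IsSimple σ) = avg fun σ : Pairing V q => frac fun p : HE V q × HE V q =>
      IsSimple σ ∧ ¬ IsSimple (switch σ p.1 p.2) := by
    rw [p_frac_comm]
    simp only [p5_simple2]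
    rw [p_frac_comm]
  have h3 : ∀ σ : Pairing V q, (frac fun p : HE V q × HE V q => ¬ (IsSimple (switch σ p.1 p.2) ↔ IsSimple σ)) ≤
      (frac fun p : HE V q × HE V q => IsSimple σ ∧ ¬ IsSimple (switch σ p.1 p.2)) +
      frac fun p : HE V q × HE V q => IsSimple (switch σ p.1 p.2) ∧ ¬ IsSimple σ :=
    fun σ => p_frac_or_le fun p hp => p_niff hp
  refine (p_avg_mono h3).trans ?_
  rw [p_avg_add, h2]
  exact (add_le_add h1 h1).trans (le_of_eq (by ring))

/-- the half-edges queried by the walks behind `h` -/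
def p_Q (σ : Pairing V q) (R : ℕ) (h : HE V q) : Finset (HE V q) :=
  (p_L q R ×ˢ (Finset.univ : Finset (Fin q))).image fun x => rot (walk σ h x.1) x.2.succ

theorem p_card_Q (σ : Pairing V q) (R : ℕ) (h : HE V q) : (p_Q σ R h).card ≤ (p_L q R).card * q :=
  Finset.card_image_le.trans (by simp)

theorem p_walk_loc {σ σ' : Pairing V q} {R : ℕ} {h : HE V q} (hσ : ∀ x ∈ p_Q σ R h, σ' x = σ x)
    (l : List (Fin q)) (hl : l.length ≤ R) : walk σ' h l = walk σ h l := by
  induction l using List.reverseRecOn with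
  | nil => rfl
  | append_singleton l j ih =>
    have hl' : l.length ≤ R := by
      simp only [List.length_append, List.length_singleton] at hl
      omega
    rw [p_walk_concat, p_walk_concat, ih hl']
    exact hσ _ (Finset.mem_image.2 ⟨(l, j), Finset.mem_product.2 ⟨p_mem_L.2 hl', Finset.mem_univ _⟩, rfl⟩)

theorem p_walk_switch {σ : Pairing V q} {R : ℕ} {a b h : HE V q} {l : List (Fin q)} (hl : l.length ≤ R)
    (hne : walk (switch σ a b) h l ≠ walk σ h l) :
    (a ∈ p_Q σ R h ∨ σ a ∈ p_Q σ R h) ∨ (b ∈ p_Q σ R h ∨ σ b ∈ p_Q σ R h) := by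
  by_contra hn
  simp only [not_or] at hn
  exact hne (p_walk_loc (fun x hx => p_switch_of_ne σ (fun e => hn.1.1 (by rwa [e] at hx))
    (fun e => hn.2.1 (by rwa [e] at hx)) (fun e => hn.1.2 (e ▸ hx)) fun e => hn.2.2 (e ▸ hx)) l hl)

theorem p_own {σ : Pairing V q} {R : ℕ} {h : HE V q} (ht : TreeLike σ R h) :
    ¬ (h ∈ p_Q σ R h ∨ σ h ∈ p_Q σ R h) := by
  rintro (hm | hm) <;> obtain ⟨⟨l, j⟩, hl, e⟩ := Finset.mem_image.1 hm <;>
    have hl' : l.length ≤ R := p_mem_L.1 (Finset.mem_product.1 hl).1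
  · cases l with
    | nil => exact p_rot_succ_ne h j e
    | cons i l => exact ht.1 i.succ l (Nat.le_of_succ_le hl') (congrArg Prod.fst e :)
  · cases l with
    | nil =>
      refine ht.1 0 [] (Nat.zero_le _) ?_
      rw [p_rot_zero]
      exact (congrArg Prod.fst e :).symm
    | cons i l =>
      refine Fin.succ_ne_zero i (ht.2 i.succ 0 l [] (Nat.le_of_succ_le hl') (Nat.zero_le _) ?_).1
      rw [p_rot_zero]
      exact (congrArg Prod.fst e :)

/-- the half-edges queried by the walks on both sides of the edge of `c` -/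
def p_QQ (σ : Pairing V q) (R : ℕ) (c : HE V q) : Finset (HE V q) := insert c (p_Q σ R c ∪ p_Q σ R (σ c))

/-- bound for the number of queried half-edges -/
@[irreducible] def p_c2 (q R : ℕ) : ℕ := 2 * ((p_L q R).card * q) + 1

theorem p_card_QQ (σ : Pairing V q) (R : ℕ) (c : HE V q) : (p_QQ σ R c).card ≤ p_c2 q R := by
  rw [p_c2]
  refine (Finset.card_insert_le _ _).trans (Nat.succ_le_succ ((Finset.card_union_le _ _).trans ?_))
  have := p_card_Q σ R c
  have := p_card_Q σ R (σ c)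
  omega

theorem p5_own (σ : Pairing V q) (R : ℕ) : (frac fun p : HE V q × HE V q =>
    ∃ h ∈ [p.1, σ p.1], ∃ l : List (Fin q), l.length ≤ R ∧ walk (switch σ p.1 p.2) h l ≠ walk σ h l) ≤
      2 * (frac fun h => ¬ TreeLike σ R h) + 2 * (p_c2 q R : ℝ) / Fintype.card V := by
  refine (p_frac_or_le (p₁ := fun p => ¬ TreeLike σ R p.1 ∨ ¬ TreeLike σ R (σ p.1))
    (p₂ := fun p => p.2 ∈ p_QQ σ R p.1 ∨ σ p.2 ∈ p_QQ σ R p.1) ?_).trans (add_le_add ?_ ?_)
  · rintro ⟨a, b⟩ ⟨h, hh, l, hl, hne⟩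
    have := p_walk_switch hl hne
    simp only [List.mem_cons, List.not_mem_nil, or_false] at hh
    simp only [p_QQ, Finset.mem_insert, Finset.mem_union]
    rcases hh with rfl | rfl
    · rcases this with h1 | h1
      · exact Or.inl (Or.inl fun ht => p_own ht h1)
      · tauto
    · rcases this with h1 | h1
      · exact Or.inl (Or.inr fun ht => p_own ht (by simpa only [p_inv] using h1.symm))
      · tauto
  · refine (p_frac_fst fun a => ¬ TreeLike σ R a ∨ ¬ TreeLike σ R (σ a)).trans ((p_frac_or _ _).trans ?_)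
    rw [two_mul]
    exact add_le_add le_rfl (p_frac_equiv σ.1 fun a => ¬ TreeLike σ R a).le
  · rw [p_frac_prod]
    exact p_avg_le (by positivity) fun a => p_frac_hit σ (Z := p_QQ σ R a) (p_card_QQ σ R a)

theorem p5_other (σ : Pairing V q) (R : ℕ) : (frac fun p : (HE V q × HE V q) × HE V q =>
    switch σ p.1.1 p.1.2 p.2 ≠ σ p.2 ∨ ∃ h ∈ [p.2, σ p.2], ∃ l : List (Fin q), l.length ≤ R ∧
      walk (switch σ p.1.1 p.1.2) h l ≠ walk σ h l) ≤
      2 * (2 * (p_c2 q R : ℝ) / Fintype.card V) := by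
  rw [p_frac_prod']
  refine p_avg_le (by positivity) fun c => ?_
  refine (p_frac_or_le (p₁ := fun p => p.1 ∈ p_QQ σ R c ∨ σ p.1 ∈ p_QQ σ R c)
    (p₂ := fun p => p.2 ∈ p_QQ σ R c ∨ σ p.2 ∈ p_QQ σ R c) ?_).trans ?_
  · rintro ⟨a, b⟩ hp
    simp only [p_QQ, Finset.mem_insert, Finset.mem_union]
    rcases hp with hp | ⟨h, hh, l, hl, hne⟩
    · by_contra hn
      simp only [not_or] at hn
      exact hp (p_switch_of_ne σ (Ne.symm hn.1.1.1) (Ne.symm hn.2.1.1) (Ne.symm hn.1.2.1) (Ne.symm hn.2.2.1))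
    · have := p_walk_switch hl hne
      simp only [List.mem_cons, List.not_mem_nil, or_false] at hh
      rcases hh with rfl | rfl <;> tauto
  · rw [two_mul]
    exact add_le_add ((p_frac_fst fun a => a ∈ p_QQ σ R c ∨ σ a ∈ p_QQ σ R c).trans
      (p_frac_hit σ (p_card_QQ σ R c))) ((p_frac_snd fun a => a ∈ p_QQ σ R c ∨ σ a ∈ p_QQ σ R c).trans
      (p_frac_hit σ (p_card_QQ σ R c)))

theorem stP5 : StP5 := by
  intro q R
  obtain ⟨C, hC0, hC⟩ := p_treeLike_avg q R
  set A : ℝ := 4 * (p_c1 q : ℝ) with hA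
  set B : ℝ := 2 * (p_c2 q R : ℝ) with hB
  have hA0 : 0 ≤ A := by positivity
  have hB0 : 0 ≤ B := by positivity
  refine ⟨A + 4 * C + 2 * B, fun V _ _ => ?_⟩
  have hV : (0 : ℝ) ≤ Fintype.card V := Nat.cast_nonneg _
  have hA1 : 0 ≤ A / Fintype.card V := by positivity
  have hB1 : 0 ≤ B / Fintype.card V := by positivity
  have hC1 : 0 ≤ C / Fintype.card V := by positivity
  have e : (A + 4 * C + 2 * B) / Fintype.card V =
      A / Fintype.card V + 4 * (C / Fintype.card V) + 2 * (B / Fintype.card V) := by ring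
  rw [e]
  refine ⟨p5_simple.trans (by linarith), ?_, (p_avg_le (by positivity) fun σ => p5_other σ R).trans (by linarith)⟩
  have h1 : ∀ σ : Pairing V q, (frac fun p : HE V q × HE V q => ∃ h ∈ [p.1, p.2, σ p.1, σ p.2],
      ∃ l : List (Fin q), l.length ≤ R ∧ walk (switch σ p.1 p.2) h l ≠ walk σ h l) ≤
        4 * (frac fun h => ¬ TreeLike σ R h) + 2 * (B / Fintype.card V) := fun σ => by
    have h2 := p5_own σ R
    have h3 := (p_frac_equiv (Equiv.prodComm _ _) _).trans_le h2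
    refine (p_frac_or_le ?_).trans ((add_le_add h2 h3).trans (by linarith))
    rintro ⟨a, b⟩ ⟨h, hh, l, hl, hne⟩
    simp only [List.mem_cons, List.not_mem_nil, or_false] at hh
    rcases hh with rfl | rfl | rfl | rfl
    · exact Or.inl ⟨_, by simp, l, hl, hne⟩
    · exact Or.inr ⟨h, by simp, l, hl, by rwa [p_switch_comm] at hne⟩
    · exact Or.inl ⟨_, by simp, l, hl, hne⟩
    · exact Or.inr ⟨σ b, by simp, l, hl, by rwa [p_switch_comm] at hne⟩
  refine (p_avg_mono h1).trans ?_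
  rw [p_avg_add, p_avg_mul]
  have h4 := p_avg_le (f := fun _ : Pairing V q => 2 * (B / Fintype.card V)) (by positivity) fun _ => le_rfl
  have h5 := hC V
  linarith

end Crest.Agent.R166
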